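import Mathlib

/-! The one-dimensional travelling Gaussian wave packet. -/

namespace Vale.Agent.P076

open MeasureTheory Complex Real

/-- Gaussian of width `√R` centred at frequency `R`. -/
noncomputable def gam1 (R ξ : ℝ) : ℝ := Real.exp (-(ξ - R) ^ 2 / (2 * R))

/-- one-dimensional (regularised) Schroedinger oscillatory factor -/
noncomputable def osc (z : ℂ) (x ξ : ℝ) : ℂ := cexp (I * x * ξ - z * (ξ : ℂ) ^ 2)

theorem norm_osc (z : ℂ) (x ξ : ℝ) : ‖osc z x ξ‖ = Real.exp (-z.re * ξ ^ 2) := by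
  unfold osc
  rw [Complex.norm_exp]
  congr 1
  have h1 : (I * x * ξ : ℂ) = ((x * ξ : ℝ) : ℂ) * I := by push_cast; ring
  have h2 : (z * (ξ : ℂ) ^ 2) = ((ξ ^ 2 : ℝ) : ℂ) * z := by push_cast; ring
  rw [Complex.sub_re, h1, h2, Complex.re_ofReal_mul, Complex.re_ofReal_mul, Complex.I_re]
  ring

theorem norm_osc_le_one (z : ℂ) (hz : 0 ≤ z.re) (x ξ : ℝ) : ‖osc z x ξ‖ ≤ 1 := by
  rw [norm_osc]
  apply Real.exp_le_one_iff.2
  have : 0 ≤ z.re * ξ ^ 2 := by positivity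
  linarith

theorem packet_formula (R : ℝ) (hR : 0 < R) (z : ℂ) (hz : 0 ≤ z.re) (x : ℝ) :
    ∫ ξ : ℝ, osc z x ξ * (gam1 R ξ : ℂ) =
      (π / (z + 1 / (2 * R))) ^ (1 / 2 : ℂ) *
        cexp (-(R : ℂ) / 2 + (I * x + 1) ^ 2 / (4 * (z + 1 / (2 * R)))) := by
  have hR0 : (R : ℂ) ≠ 0 := by exact_mod_cast hR.ne'
  have hb : (-(z + 1 / (2 * (R : ℂ)))).re < 0 := by
    have : (1 / (2 * (R : ℂ))).re = 1 / (2 * R) := by
      have : (1 / (2 * (R : ℂ))) = ((1 / (2 * R) : ℝ) : ℂ) := by push_cast; ring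
      rw [this, Complex.ofReal_re]
    rw [Complex.neg_re, Complex.add_re, this]
    have : 0 < 1 / (2 * R) := by positivity
    linarith
  have h := integral_cexp_quadratic hb (I * x + 1) (-(R : ℂ) / 2)
  have e : (fun ξ : ℝ => osc z x ξ * (gam1 R ξ : ℂ)) =
      fun ξ : ℝ => cexp (-(z + 1 / (2 * (R : ℂ))) * (ξ : ℂ) ^ 2 + (I * x + 1) * ξ + -(R : ℂ) / 2) := by
    ext ξ
    unfold osc gam1
    rw [Complex.ofReal_exp, ← Complex.exp_add]
    congr 1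
    push_cast
    field_simp
    ring
  rw [e, h]
  congr 2
  · ring
  · have hne : z + 1 / (2 * (R : ℂ)) ≠ 0 := by
      intro h0
      rw [h0] at hb
      simp at hb
    field_simp
    ring

theorem re_quot (p t x : ℝ) (hp : 0 < p) :
    ((I * x + 1) ^ 2 / (4 * ((p : ℂ) + I * t))).re =
      ((1 - x ^ 2) * p + 2 * x * t) / (4 * (p ^ 2 + t ^ 2)) := by
  have hne : (p : ℂ) + I * t ≠ 0 := by
    intro h
    have := congrArg Complex.re h
    simp at this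
    linarith
  have hpos : 0 < p ^ 2 + t ^ 2 := by positivity
  have h1 : (I * x + 1) ^ 2 / (4 * ((p : ℂ) + I * t)) =
      ((1 / (4 * (p ^ 2 + t ^ 2)) : ℝ) : ℂ) * ((I * x + 1) ^ 2 * ((p : ℂ) - I * t)) := by
    have h2 : ((p : ℂ) + I * t) * ((p : ℂ) - I * t) = ((p ^ 2 + t ^ 2 : ℝ) : ℂ) := by
      push_cast
      ring_nf
      rw [I_sq]; ring
    have h3 : ((p ^ 2 + t ^ 2 : ℝ) : ℂ) ≠ 0 := by exact_mod_cast hpos.ne'
    rw [div_eq_iff (mul_ne_zero (by norm_num) hne)]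
    push_cast at h2 h3 ⊢
    field_simp
    rw [← h2]
    ring
  rw [h1, Complex.re_ofReal_mul]
  have h4 : ((I * x + 1) ^ 2 * ((p : ℂ) - I * t)).re = (1 - x ^ 2) * p + 2 * x * t := by
    have h5 : (I * x + 1) ^ 2 * ((p : ℂ) - I * t) =
        (((1 - x ^ 2) * p + 2 * x * t : ℝ) : ℂ) + ((2 * x * p - (1 - x ^ 2) * t : ℝ) : ℂ) * I := by
      push_cast
      ring_nf
      have hI3 : I ^ 3 = -I := by rw [pow_succ, I_sq]; ring
      simp only [hI3, I_sq]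
      ring
    rw [h5, Complex.add_re, Complex.ofReal_re, Complex.re_ofReal_mul, Complex.I_re]
    ring
  rw [h4]
  field_simp

theorem packet_norm (R : ℝ) (hR : 0 < R) (a t x : ℝ) (ha : 0 ≤ a) :
    ‖∫ ξ : ℝ, osc ((a : ℂ) + I * t) x ξ * (gam1 R ξ : ℂ)‖ =
      Real.sqrt (π / ‖(((a + 1 / (2 * R) : ℝ)) : ℂ) + I * t‖) *
        Real.exp (-R / 2 + ((1 - x ^ 2) * (a + 1 / (2 * R)) + 2 * x * t) /
          (4 * ((a + 1 / (2 * R)) ^ 2 + t ^ 2))) := by
  have hp : 0 < a + 1 / (2 * R) := by positivity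
  rw [packet_formula R hR _ (by simpa using ha) x]
  have hu : ((a : ℂ) + I * t + 1 / (2 * (R : ℂ))) = (((a + 1 / (2 * R) : ℝ)) : ℂ) + I * t := by
    push_cast; ring
  rw [hu, norm_mul]
  congr 1
  · have h2 : (1 / 2 : ℂ) = ((1 / 2 : ℝ) : ℂ) := by push_cast; ring
    rw [h2, Complex.norm_cpow_real, norm_div, Complex.norm_real, Real.norm_of_nonneg Real.pi_pos.le,
      ← Real.sqrt_eq_rpow]
  · rw [Complex.norm_exp, Complex.add_re, re_quot _ t x hp]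
    congr 2
    have : (-(R : ℂ) / 2) = ((-R / 2 : ℝ) : ℂ) := by push_cast; ring
    rw [this, Complex.ofReal_re]

theorem packet_lower (R : ℝ) (hR : 0 < R) (t x : ℝ) (ht0 : 0 ≤ t) (ht : t ≤ 1 / R)
    (hx : (x - 2 * R * t) ^ 2 ≤ 4 / R) :
    Real.sqrt (2 * π * R / 3) * Real.exp (-2) ≤ ‖∫ ξ : ℝ, osc (I * t) x ξ * (gam1 R ξ : ℂ)‖ := by
  have h := packet_norm R hR 0 t x le_rfl
  simp only [Complex.ofReal_zero, zero_add] at h
  rw [h]
  have hpi := Real.pi_pos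
  have hnorm : ‖(((1 / (2 * R) : ℝ)) : ℂ) + I * t‖ ≤ 3 / (2 * R) := by
    calc ‖(((1 / (2 * R) : ℝ)) : ℂ) + I * t‖ ≤ ‖(((1 / (2 * R) : ℝ)) : ℂ)‖ + ‖I * (t : ℂ)‖ := norm_add_le _ _
      _ = 1 / (2 * R) + t := by
          rw [Complex.norm_real, norm_mul, Complex.norm_I, Complex.norm_real,
            Real.norm_of_nonneg (by positivity), Real.norm_of_nonneg ht0]
          ring
      _ ≤ 1 / (2 * R) + 1 / R := by linarith
      _ = 3 / (2 * R) := by field_simp; norm_num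
  have hnpos : 0 < ‖(((1 / (2 * R) : ℝ)) : ℂ) + I * t‖ := by
    rw [norm_pos_iff]
    intro h0
    have := congrArg Complex.re h0
    simp at this
    linarith
  apply mul_le_mul
  · apply Real.sqrt_le_sqrt
    rw [le_div_iff₀ hnpos]
    calc 2 * π * R / 3 * ‖(((1 / (2 * R) : ℝ)) : ℂ) + I * t‖ ≤ 2 * π * R / 3 * (3 / (2 * R)) := by gcongr
      _ = π := by field_simp
  · apply Real.exp_le_exp.2
    have hden : 0 < 1 + 4 * R ^ 2 * t ^ 2 := by positivity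
    have e : -R / 2 + ((1 - x ^ 2) * (1 / (2 * R)) + 2 * x * t) / (4 * ((1 / (2 * R)) ^ 2 + t ^ 2))
        = -(R * (x - 2 * R * t) ^ 2 / (2 * (1 + 4 * R ^ 2 * t ^ 2))) := by
      field_simp
      ring
    rw [e]
    have h1 : R * (x - 2 * R * t) ^ 2 / (2 * (1 + 4 * R ^ 2 * t ^ 2)) ≤ 2 := by
      rw [div_le_iff₀ (by positivity)]
      have h2 : R * (x - 2 * R * t) ^ 2 ≤ 4 := by
        calc R * (x - 2 * R * t) ^ 2 ≤ R * (4 / R) := by gcongr
          _ = 4 := by field_simp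
      nlinarith [sq_nonneg (R * t)]
    linarith
  · positivity
  · positivity

theorem packet_upper (R : ℝ) (hR : 0 < R) (a t t₀ x : ℝ) (ha : 0 ≤ a) (ht₀ : 0 < t₀) (ht : t₀ ≤ t)
    (hx : |x| ≤ 1) :
    ‖∫ ξ : ℝ, osc ((a : ℂ) + I * t) x ξ * (gam1 R ξ : ℂ)‖ ≤
      Real.sqrt (π / t₀) * Real.exp (1 / t₀ - R / 2) := by
  rw [packet_norm R hR a t x ha]
  set p : ℝ := a + 1 / (2 * R) with hp
  have hp0 : 0 < p := by positivity
  have ht0 : 0 < t := lt_of_lt_of_le ht₀ ht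
  have hpi := Real.pi_pos
  have hnorm : t₀ ≤ ‖((p : ℝ) : ℂ) + I * t‖ := by
    have h1 := Complex.abs_im_le_norm (((p : ℝ) : ℂ) + I * t)
    simp at h1
    rw [abs_of_pos ht0] at h1
    linarith
  apply mul_le_mul
  · apply Real.sqrt_le_sqrt
    gcongr
  · apply Real.exp_le_exp.2
    have hx1 : x ≤ 1 := (abs_le.1 hx).2
    have h1 : ((1 - x ^ 2) * p + 2 * x * t) / (4 * (p ^ 2 + t ^ 2)) ≤ 1 / t := by
      rw [div_le_div_iff₀ (by positivity) ht0]
      have h2 : (1 - x ^ 2) * p ≤ p := by nlinarith [sq_nonneg x]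
      have h3 : 2 * x * t ≤ 2 * t := by nlinarith
      nlinarith [sq_nonneg (p - t), sq_nonneg p, sq_nonneg t, mul_pos hp0 ht0]
    have h4 : 1 / t ≤ 1 / t₀ := by gcongr
    linarith
  · positivity
  · positivity

end Vale.Agent.P076
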