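import Mathlib
import Vale.Agent.P076.Defs
import Vale.Agent.P076.Packet

/-! Basic properties of the regularised evolution. -/

namespace Vale.Agent.P076

open MeasureTheory Complex Filter Topology

/-- the two-dimensional oscillatory factor -/
noncomputable def osc2 (a t : ℝ) (x ξ : ℝ × ℝ) : ℂ :=
  cexp (I * ((x.1 : ℂ) * ξ.1 + (x.2 : ℂ) * ξ.2) -
      ((a : ℂ) + I * t) * ((ξ.1 : ℂ) ^ 2 + (ξ.2 : ℂ) ^ 2))

theorem schrodReg_eq (g : ℝ × ℝ → ℂ) (a t : ℝ) (x : ℝ × ℝ) :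
    schrodReg g a t x = ((2 * (Real.pi : ℂ)) ^ 2)⁻¹ * ∫ ξ : ℝ × ℝ, osc2 a t x ξ * g ξ := rfl

theorem osc2_eq_mul (a t : ℝ) (x ξ : ℝ × ℝ) :
    osc2 a t x ξ = osc ((a : ℂ) + I * t) x.1 ξ.1 * osc ((a : ℂ) + I * t) x.2 ξ.2 := by
  unfold osc2 osc
  rw [← Complex.exp_add]
  congr 1
  ring

theorem norm_osc2 (a t : ℝ) (x ξ : ℝ × ℝ) :
    ‖osc2 a t x ξ‖ = Real.exp (-a * (ξ.1 ^ 2 + ξ.2 ^ 2)) := by
  rw [osc2_eq_mul, norm_mul, norm_osc, norm_osc, ← Real.exp_add]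
  congr 1
  simp
  ring

theorem norm_osc2_le_one (a t : ℝ) (ha : 0 ≤ a) (x ξ : ℝ × ℝ) : ‖osc2 a t x ξ‖ ≤ 1 := by
  rw [norm_osc2]
  apply Real.exp_le_one_iff.2
  have : 0 ≤ a * (ξ.1 ^ 2 + ξ.2 ^ 2) := by positivity
  linarith

theorem continuous_osc2 (a t : ℝ) (x : ℝ × ℝ) : Continuous (fun ξ : ℝ × ℝ => osc2 a t x ξ) := by
  unfold osc2
  fun_prop

theorem norm_const_inv : ‖((2 * (Real.pi : ℂ)) ^ 2)⁻¹‖ = ((2 * Real.pi) ^ 2)⁻¹ := by
  rw [norm_inv, norm_pow, norm_mul, Complex.norm_real, Real.norm_of_nonneg Real.pi_pos.le]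
  simp

theorem integrable_osc2_mul (g : ℝ × ℝ → ℂ) (hg : Integrable g) (a t : ℝ) (ha : 0 ≤ a) (x : ℝ × ℝ) :
    Integrable (fun ξ => osc2 a t x ξ * g ξ) := by
  refine hg.bdd_mul (c := 1) (continuous_osc2 a t x).aestronglyMeasurable ?_
  exact Filter.Eventually.of_forall fun ξ => norm_osc2_le_one a t ha x ξ

theorem norm_schrodReg_le (g : ℝ × ℝ → ℂ) (hg : Integrable g) (a t : ℝ) (ha : 0 ≤ a) (x : ℝ × ℝ) :
    ‖schrodReg g a t x‖ ≤ ((2 * Real.pi) ^ 2)⁻¹ * ∫ ξ, ‖g ξ‖ := by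
  rw [schrodReg_eq, norm_mul, norm_const_inv]
  gcongr
  calc ‖∫ ξ : ℝ × ℝ, osc2 a t x ξ * g ξ‖ ≤ ∫ ξ : ℝ × ℝ, ‖osc2 a t x ξ * g ξ‖ :=
        norm_integral_le_integral_norm _
    _ ≤ ∫ ξ, ‖g ξ‖ := by
        apply integral_mono (integrable_osc2_mul g hg a t ha x).norm hg.norm
        intro ξ
        simp only [norm_mul]
        calc ‖osc2 a t x ξ‖ * ‖g ξ‖ ≤ 1 * ‖g ξ‖ := by
              gcongr
              exact norm_osc2_le_one a t ha x ξ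
          _ = ‖g ξ‖ := one_mul _

theorem schrodReg_tendsto (g : ℝ × ℝ → ℂ) (hg : Integrable g) (t : ℝ) (x : ℝ × ℝ) :
    Tendsto (fun a : ℝ => schrodReg g a t x) (𝓝[>] 0) (𝓝 (schrodReg g 0 t x)) := by
  simp_rw [schrodReg_eq]
  apply Tendsto.const_mul
  apply tendsto_integral_filter_of_dominated_convergence (fun ξ => ‖g ξ‖)
  · filter_upwards with a
    exact ((continuous_osc2 a t x).aestronglyMeasurable).mul hg.1
  · filter_upwards [self_mem_nhdsWithin] with a ha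
    filter_upwards with ξ
    rw [norm_mul]
    calc ‖osc2 a t x ξ‖ * ‖g ξ‖ ≤ 1 * ‖g ξ‖ := by
          gcongr
          exact norm_osc2_le_one a t (le_of_lt ha) x ξ
      _ = ‖g ξ‖ := one_mul _
  · exact hg.norm
  · filter_upwards with ξ
    apply Tendsto.mul_const
    apply Tendsto.mono_left _ nhdsWithin_le_nhds
    have : Continuous (fun a : ℝ => osc2 a t x ξ) := by
      unfold osc2
      fun_prop
    exact this.tendsto 0

end Vale.Agent.P076
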