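import Mathlib

namespace Vale.Agent.P076

open Finset

/-- the sum of the odd numbers up to `N` -/
theorem sum_odd_Icc (N : ℕ) : ∑ n ∈ (Finset.Icc 1 N).filter Odd, n = ((N + 1) / 2) ^ 2 := by
  induction N with
  | zero => simp
  | succ N ih =>
    rw [Finset.sum_filter] at ih ⊢
    rw [Finset.sum_Icc_succ_top (by omega), ih]
    rcases Nat.even_or_odd' N with ⟨m, hm | hm⟩
    · have h1 : Odd (N + 1) := ⟨m, by omega⟩
      rw [if_pos h1]
      have e1 : (N + 1) / 2 = m := by omega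
      have e2 : (N + 1 + 1) / 2 = m + 1 := by omega
      rw [e1, e2, hm]
      ring
    · have h1 : ¬ Odd (N + 1) := by
        rw [Nat.not_odd_iff_even]
        exact ⟨m + 1, by omega⟩
      rw [if_neg h1]
      have e1 : (N + 1) / 2 = m + 1 := by omega
      have e2 : (N + 1 + 1) / 2 = m + 1 := by omega
      rw [e1, e2]
      ring

/-- the number of odd numbers up to `n` -/
theorem card_odd_Icc_le (n : ℕ) : ((Finset.Icc 1 n).filter Odd).card ≤ (n + 1) / 2 := by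
  rw [← Finset.card_range ((n + 1) / 2)]
  apply Finset.card_le_card_of_injOn (fun d => d / 2)
  · intro d hd
    simp only [Finset.coe_filter, Finset.mem_Icc, Set.mem_ofPred_eq] at hd
    obtain ⟨⟨_, h2⟩, k, hk⟩ := hd
    simp only [Finset.coe_range, Set.mem_Iio]
    omega
  · intro d hd d' hd' h
    simp only [Finset.coe_filter, Finset.mem_Icc, Set.mem_ofPred_eq] at hd hd'
    obtain ⟨_, k, hk⟩ := hd
    obtain ⟨_, k', hk'⟩ := hd'
    simp only at h
    omega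

/-- double counting with `∑_{d ∣ n} φ d = n` -/
theorem sum_odd_le (N : ℕ) :
    ∑ n ∈ (Finset.Icc 1 N).filter Odd, n ≤
      ∑ d ∈ (Finset.Icc 1 N).filter Odd, Nat.totient d * (N / d) := by
  set S := (Finset.Icc 1 N).filter Odd with hS
  have h1 : ∀ n ∈ S, n = ∑ d ∈ S, if d ∣ n then Nat.totient d else 0 := by
    intro n hn
    have hn' := hn
    rw [hS, Finset.mem_filter, Finset.mem_Icc] at hn'
    obtain ⟨⟨hn1, hn2⟩, hodd⟩ := hn'
    rw [← Finset.sum_filter]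
    have : S.filter (fun d => d ∣ n) = n.divisors := by
      ext d
      rw [Finset.mem_filter, hS, Finset.mem_filter, Finset.mem_Icc, Nat.mem_divisors]
      constructor
      · rintro ⟨_, hd⟩
        exact ⟨hd, by omega⟩
      · rintro ⟨hd, _⟩
        have hdle : d ≤ n := Nat.le_of_dvd (by omega) hd
        have hdpos : 0 < d := Nat.pos_of_dvd_of_pos hd (by omega)
        exact ⟨⟨⟨hdpos, by omega⟩, Odd.of_dvd_nat hodd hd⟩, hd⟩
    rw [this, Nat.sum_totient]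
  calc ∑ n ∈ S, n = ∑ n ∈ S, ∑ d ∈ S, if d ∣ n then Nat.totient d else 0 :=
        Finset.sum_congr rfl h1
    _ = ∑ d ∈ S, ∑ n ∈ S, if d ∣ n then Nat.totient d else 0 := Finset.sum_comm
    _ ≤ ∑ d ∈ S, Nat.totient d * (N / d) := by
        apply Finset.sum_le_sum
        intro d _
        rw [← Finset.sum_filter, Finset.sum_const, smul_eq_mul, mul_comm]
        apply Nat.mul_le_mul_left
        rw [← Nat.Ioc_filter_dvd_card_eq_div]
        apply Finset.card_le_card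
        intro n hn
        rw [Finset.mem_filter, hS, Finset.mem_filter, Finset.mem_Icc] at hn
        rw [Finset.mem_filter, Finset.mem_Ioc]
        exact ⟨⟨by omega, hn.1.1.2⟩, hn.2⟩

theorem sum_totient_sq_lower (N : ℕ) (hN : 64 ≤ N) :
    (N : ℝ) ^ 3 / 2048 ≤ ∑ q ∈ (Finset.Icc 3 N).filter Odd, ((Nat.totient q : ℝ)) ^ 2 := by
  set S := (Finset.Icc 1 N).filter Odd with hS
  set x : ℕ → ℝ := fun d => (Nat.totient d : ℝ) / d with hx
  have hNr : (64 : ℝ) ≤ N := by exact_mod_cast hN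
  have hmemS : ∀ d, d ∈ S ↔ (1 ≤ d ∧ d ≤ N) ∧ Odd d := by
    intro d
    rw [hS, Finset.mem_filter, Finset.mem_Icc]
  have hx0 : ∀ d, 0 ≤ x d := fun d => by positivity
  have hx1 : ∀ d, x d ≤ 1 := by
    intro d
    apply div_le_one_of_le₀ _ (Nat.cast_nonneg d)
    exact_mod_cast Nat.totient_le d
  -- step 1
  have hA : (N : ℝ) ^ 2 / 4 ≤ ∑ n ∈ S, (n : ℝ) := by
    have h1 := sum_odd_Icc N
    have h2 : ((∑ n ∈ S, n : ℕ) : ℝ) = (((N + 1) / 2 : ℕ) : ℝ) ^ 2 := by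
      rw [h1]
      push_cast
      ring
    rw [Nat.cast_sum] at h2
    rw [h2]
    have h3 : N ≤ 2 * ((N + 1) / 2) := by omega
    have h4 : (N : ℝ) ≤ 2 * (((N + 1) / 2 : ℕ) : ℝ) := by exact_mod_cast h3
    nlinarith
  have hB : ∑ n ∈ S, (n : ℝ) ≤ N * ∑ d ∈ S, x d := by
    have h1 := sum_odd_le N
    have h2 : ((∑ n ∈ S, n : ℕ) : ℝ) ≤ ((∑ d ∈ S, Nat.totient d * (N / d) : ℕ) : ℝ) := by
      exact_mod_cast h1
    rw [Nat.cast_sum, Nat.cast_sum] at h2
    refine h2.trans ?_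
    rw [Finset.mul_sum]
    apply Finset.sum_le_sum
    intro d _
    rw [Nat.cast_mul]
    have h3 : ((N / d : ℕ) : ℝ) ≤ (N : ℝ) / d := Nat.cast_div_le
    calc (Nat.totient d : ℝ) * ((N / d : ℕ) : ℝ) ≤ (Nat.totient d : ℝ) * ((N : ℝ) / d) :=
          mul_le_mul_of_nonneg_left h3 (Nat.cast_nonneg _)
      _ = N * x d := by
          simp only [hx]
          ring
  have hC : (N : ℝ) / 4 ≤ ∑ d ∈ S, x d := by
    have h1 : (N : ℝ) ^ 2 / 4 ≤ N * ∑ d ∈ S, x d := hA.trans hB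
    have hNpos : (0 : ℝ) < N := by linarith
    have h2 : (N : ℝ) * ((N : ℝ) / 4) ≤ N * ∑ d ∈ S, x d := by
      calc (N : ℝ) * ((N : ℝ) / 4) = (N : ℝ) ^ 2 / 4 := by ring
        _ ≤ _ := h1
    exact le_of_mul_le_mul_left h2 hNpos
  -- step 2
  set T := S.filter (fun d => N < 8 * d) with hT
  have hsplit : ∑ d ∈ S, x d = ∑ d ∈ T, x d + ∑ d ∈ S.filter (fun d => ¬ N < 8 * d), x d :=
    (Finset.sum_filter_add_sum_filter_not S (fun d => N < 8 * d) x).symm
  have hsmall : ∑ d ∈ S.filter (fun d => ¬ N < 8 * d), x d ≤ (N : ℝ) / 16 + 1 / 2 := by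
    have h1 : ∑ d ∈ S.filter (fun d => ¬ N < 8 * d), x d ≤
        ((S.filter (fun d => ¬ N < 8 * d)).card : ℝ) := by
      calc ∑ d ∈ S.filter (fun d => ¬ N < 8 * d), x d
          ≤ ∑ _d ∈ S.filter (fun d => ¬ N < 8 * d), (1 : ℝ) := Finset.sum_le_sum fun d _ => hx1 d
        _ = _ := by simp
    have h2 : (S.filter (fun d => ¬ N < 8 * d)).card ≤ (N / 8 + 1) / 2 := by
      refine le_trans (Finset.card_le_card ?_) (card_odd_Icc_le (N / 8))
      intro d hd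
      rw [Finset.mem_filter, hmemS] at hd
      rw [Finset.mem_filter, Finset.mem_Icc]
      exact ⟨⟨hd.1.1.1, by omega⟩, hd.1.2⟩
    have h3 : 16 * ((N / 8 + 1) / 2) ≤ N + 8 := by omega
    have h4 : (16 : ℝ) * (((N / 8 + 1) / 2 : ℕ) : ℝ) ≤ N + 8 := by exact_mod_cast h3
    have h5 : ((S.filter (fun d => ¬ N < 8 * d)).card : ℝ) ≤ (((N / 8 + 1) / 2 : ℕ) : ℝ) := by
      exact_mod_cast h2
    linarith
  have hTsum : 3 * (N : ℝ) / 16 - 1 / 2 ≤ ∑ d ∈ T, x d := by linarith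
  have hTcard : (T.card : ℝ) ≤ ((N : ℝ) + 1) / 2 := by
    have h1 : T.card ≤ (N + 1) / 2 := (Finset.card_filter_le _ _).trans (card_odd_Icc_le N)
    have h2 : 2 * ((N + 1) / 2) ≤ N + 1 := by omega
    have h3 : (2 : ℝ) * (((N + 1) / 2 : ℕ) : ℝ) ≤ N + 1 := by exact_mod_cast h2
    have h4 : (T.card : ℝ) ≤ (((N + 1) / 2 : ℕ) : ℝ) := by exact_mod_cast h1
    linarith
  -- step 3
  have hterm : ∀ d ∈ T, (N : ℝ) ^ 2 / 64 * (x d / 2 - 1 / 16) ≤ ((Nat.totient d : ℝ)) ^ 2 := by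
    intro d hd
    rw [hT, Finset.mem_filter, hmemS] at hd
    have hd8 : (N : ℝ) < 8 * d := by exact_mod_cast hd.2
    have hdpos : (0 : ℝ) < d := by linarith
    have h1 : (Nat.totient d : ℝ) = d * x d := by
      simp only [hx]
      field_simp
    rw [h1, mul_pow]
    have h2 : x d / 2 - 1 / 16 ≤ x d ^ 2 := by nlinarith [sq_nonneg (x d - 1 / 4)]
    have h3 : (N : ℝ) ^ 2 / 64 ≤ (d : ℝ) ^ 2 := by nlinarith
    calc (N : ℝ) ^ 2 / 64 * (x d / 2 - 1 / 16) ≤ (N : ℝ) ^ 2 / 64 * x d ^ 2 :=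
          mul_le_mul_of_nonneg_left h2 (by positivity)
      _ ≤ (d : ℝ) ^ 2 * x d ^ 2 := mul_le_mul_of_nonneg_right h3 (by positivity)
  have hsub : T ⊆ (Finset.Icc 3 N).filter Odd := by
    intro d hd
    rw [hT, Finset.mem_filter, hmemS] at hd
    rw [Finset.mem_filter, Finset.mem_Icc]
    exact ⟨⟨by omega, hd.1.1.2⟩, hd.1.2⟩
  calc (N : ℝ) ^ 3 / 2048 ≤ (N : ℝ) ^ 2 / 64 * ((∑ d ∈ T, x d) / 2 - (T.card : ℝ) / 16) := by
        have h1 : (N : ℝ) / 32 ≤ (∑ d ∈ T, x d) / 2 - (T.card : ℝ) / 16 := by linarith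
        calc (N : ℝ) ^ 3 / 2048 = (N : ℝ) ^ 2 / 64 * ((N : ℝ) / 32) := by ring
          _ ≤ _ := mul_le_mul_of_nonneg_left h1 (by positivity)
    _ = ∑ d ∈ T, (N : ℝ) ^ 2 / 64 * (x d / 2 - 1 / 16) := by
        rw [← Finset.mul_sum, Finset.sum_sub_distrib, ← Finset.sum_div, Finset.sum_const,
          nsmul_eq_mul]
        ring
    _ ≤ ∑ d ∈ T, ((Nat.totient d : ℝ)) ^ 2 := Finset.sum_le_sum hterm
    _ ≤ ∑ q ∈ (Finset.Icc 3 N).filter Odd, ((Nat.totient q : ℝ)) ^ 2 :=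
        Finset.sum_le_sum_of_subset_of_nonneg hsub (fun _ _ _ => by positivity)

end Vale.Agent.P076
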