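import Mathlib
import Vale.Agent.P076.Totient

set_option linter.unusedVariables false

namespace Vale.Agent.P076

open MeasureTheory

/-- index set of the boxes at scale N = 4 * K -/
def boxIdx (K : ℕ) : Finset (ℕ × ℕ × ℕ) :=
  ((Finset.Icc 3 (4 * K)).filter Odd).biUnion fun q =>
    (((Finset.range (q * K ^ 2)).filter (Nat.Coprime q)) ×ˢ
      ((Finset.range (q * (32 * K ^ 4))).filter (Nat.Coprime q))).image fun p => (q, p.1, p.2)

/-- the box attached to (q, n1, n2) at scale N = 4 * K -/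
def box (K : ℕ) (i : ℕ × ℕ × ℕ) : Set (ℝ × ℝ) :=
  Set.Icc (4 * Real.pi * i.2.1 / (i.1 * (4 * K : ℝ) ^ 2) - 1 / (4 * K : ℝ) ^ 3)
      (4 * Real.pi * i.2.1 / (i.1 * (4 * K : ℝ) ^ 2) + 1 / (4 * K : ℝ) ^ 3) ×ˢ
  Set.Icc (2 * Real.pi * i.2.2 / (i.1 * (4 * K : ℝ) ^ 4) - 1 / (2 * (4 * K : ℝ) ^ 6))
      (2 * Real.pi * i.2.2 / (i.1 * (4 * K : ℝ) ^ 4) + 1 / (2 * (4 * K : ℝ) ^ 6))

theorem mem_boxIdx (K : ℕ) (i : ℕ × ℕ × ℕ) : i ∈ boxIdx K ↔ (3 ≤ i.1 ∧ i.1 ≤ 4 * K ∧ Odd i.1 ∧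
    i.2.1 < i.1 * K ^ 2 ∧ Nat.Coprime i.1 i.2.1 ∧ i.2.2 < i.1 * (32 * K ^ 4) ∧
    Nat.Coprime i.1 i.2.2) := by
  obtain ⟨q, a, b⟩ := i
  simp only [boxIdx, Finset.mem_biUnion, Finset.mem_filter, Finset.mem_Icc, Finset.mem_image,
    Finset.mem_product, Finset.mem_range, Prod.mk.injEq, Prod.exists]
  constructor
  · rintro ⟨q', ⟨⟨h1, h2⟩, h3⟩, a', b', ⟨⟨h4, h5⟩, h6, h7⟩, rfl, rfl, rfl⟩
    exact ⟨h1, h2, h3, h4, h5, h6, h7⟩
  · rintro ⟨h1, h2, h3, h4, h5, h6, h7⟩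
    exact ⟨q, ⟨⟨h1, h2⟩, h3⟩, a, b, ⟨⟨h4, h5⟩, h6, h7⟩, rfl, rfl, rfl⟩

theorem card_coprime_range_mul (q M : ℕ) :
    ((Finset.range (q * M)).filter (Nat.Coprime q)).card = M * Nat.totient q := by
  induction M with
  | zero => simp
  | succ M ih =>
    have hsplit : Finset.range (q * (M + 1))
        = Finset.range (q * M) ∪ Finset.Ico (q * M) (q * M + q) := by
      ext x
      simp only [Finset.mem_range, Finset.mem_union, Finset.mem_Ico]
      constructor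
      · intro h
        by_cases hx : x < q * M
        · exact Or.inl hx
        · exact Or.inr ⟨not_lt.mp hx, by rw [mul_add, mul_one] at h; exact h⟩
      · rintro (h | h)
        · rw [mul_add, mul_one]; omega
        · rw [mul_add, mul_one]; exact h.2
    rw [hsplit, Finset.filter_union, Finset.card_union_of_disjoint, ih,
      Nat.filter_coprime_Ico_eq_totient]
    · ring
    · apply Finset.disjoint_filter_filter
      rw [Finset.disjoint_left]
      intro x hx hx'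
      rw [Finset.mem_range] at hx
      rw [Finset.mem_Ico] at hx'
      omega

theorem card_boxIdx (K : ℕ) :
    (boxIdx K).card = ∑ q ∈ (Finset.Icc 3 (4 * K)).filter Odd,
      (K ^ 2 * Nat.totient q) * (32 * K ^ 4 * Nat.totient q) := by
  unfold boxIdx
  rw [Finset.card_biUnion]
  · apply Finset.sum_congr rfl
    intro q _
    rw [Finset.card_image_of_injective, Finset.card_product, card_coprime_range_mul,
      card_coprime_range_mul]
    intro p p' h
    simp only [Prod.mk.injEq, true_and] at h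
    exact Prod.ext h.1 h.2
  · intro q _ q' _ hne
    simp only [Function.onFun]
    rw [Finset.disjoint_left]
    intro x hx hx'
    simp only [Finset.mem_image] at hx hx'
    obtain ⟨p, _, rfl⟩ := hx
    obtain ⟨p', _, h⟩ := hx'
    simp only [Prod.mk.injEq] at h
    exact hne h.1.symm

theorem measurableSet_box (K : ℕ) (i : ℕ × ℕ × ℕ) : MeasurableSet (box K i) :=
  measurableSet_Icc.prod measurableSet_Icc

theorem volume_box (K : ℕ) (hK : 0 < K) (i : ℕ × ℕ × ℕ) :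
    volume (box K i) = ENNReal.ofReal (2 / (4 * K : ℝ) ^ 9) := by
  unfold box
  rw [Measure.volume_eq_prod, Measure.prod_prod, Real.volume_Icc, Real.volume_Icc,
    ← ENNReal.ofReal_mul (by
      have : (0 : ℝ) < (4 * K : ℝ) ^ 3 := by positivity
      have h2 : 0 ≤ 1 / (4 * K : ℝ) ^ 3 := by positivity
      linarith)]
  congr 1
  have hK' : (K : ℝ) ≠ 0 := by exact_mod_cast hK.ne'
  field_simp
  ring

/-- two reduced fractions with denominators at most `N` are equal or `1 / N^2` apart -/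
theorem frac_sep {q q' b b' : ℕ} {N : ℝ} (hq : 0 < q) (hq' : 0 < q') (hqN : (q : ℝ) ≤ N)
    (hq'N : (q' : ℝ) ≤ N) (hne : b * q' ≠ b' * q) :
    1 / N ^ 2 ≤ |(b : ℝ) / q - (b' : ℝ) / q'| := by
  have hqr : (0 : ℝ) < q := by exact_mod_cast hq
  have hq'r : (0 : ℝ) < q' := by exact_mod_cast hq'
  have hN : 0 < N := lt_of_lt_of_le hqr hqN
  have hdiff : (b : ℝ) / q - (b' : ℝ) / q' = ((b : ℝ) * q' - b' * q) / (q * q') := by
    field_simp
  rw [hdiff, abs_div, abs_of_pos (mul_pos hqr hq'r)]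
  have hint : (1 : ℝ) ≤ |(b : ℝ) * q' - b' * q| := by
    have h1 : ((b : ℤ) * q' - b' * q) ≠ 0 := by
      intro h
      apply hne
      have : (b : ℤ) * q' = b' * q := by linarith
      exact_mod_cast this
    have h2 : (1 : ℤ) ≤ |(b : ℤ) * q' - b' * q| := Int.one_le_abs h1
    have h3 : ((|(b : ℤ) * q' - b' * q| : ℤ) : ℝ) = |(b : ℝ) * q' - b' * q| := by
      push_cast
      rfl
    rw [← h3]
    exact_mod_cast h2
  have hprod : (q : ℝ) * q' ≤ N ^ 2 := by nlinarith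
  calc 1 / N ^ 2 ≤ 1 / ((q : ℝ) * q') :=
        one_div_le_one_div_of_le (mul_pos hqr hq'r) hprod
    _ ≤ |(b : ℝ) * q' - b' * q| / (q * q') :=
        div_le_div_of_nonneg_right hint (mul_pos hqr hq'r).le

theorem box_disjoint (K : ℕ) (hK : 0 < K) {i j : ℕ × ℕ × ℕ} (hi : i ∈ boxIdx K)
    (hj : j ∈ boxIdx K) (hne : i ≠ j) : Disjoint (box K i) (box K j) := by
  obtain ⟨q, a, b⟩ := i
  obtain ⟨q', a', b'⟩ := j
  rw [mem_boxIdx] at hi hj
  obtain ⟨h1, h2, h3, h4, h5, h6, h7⟩ := hi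
  obtain ⟨g1, g2, g3, g4, g5, g6, g7⟩ := hj
  simp only at h1 h2 h3 h4 h5 h6 h7 g1 g2 g3 g4 g5 g6 g7
  rw [Set.disjoint_left]
  rintro ⟨x, y⟩ hx hx'
  simp only [box, Set.mem_prod, Set.mem_Icc] at hx hx'
  obtain ⟨⟨x1, x2⟩, y1, y2⟩ := hx
  obtain ⟨⟨x1', x2'⟩, y1', y2'⟩ := hx'
  set N : ℝ := 4 * (K : ℝ) with hN
  have hKr : (0 : ℝ) < K := by exact_mod_cast hK
  have hNpos : 0 < N := by positivity
  have hq : 0 < q := by omega
  have hq' : 0 < q' := by omega
  have hqr : (0 : ℝ) < q := by exact_mod_cast hq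
  have hq'r : (0 : ℝ) < q' := by exact_mod_cast hq'
  have hqN : (q : ℝ) ≤ N := by
    have : ((q : ℕ) : ℝ) ≤ ((4 * K : ℕ) : ℝ) := by exact_mod_cast h2
    simpa [hN] using this
  have hq'N : (q' : ℝ) ≤ N := by
    have : ((q' : ℕ) : ℝ) ≤ ((4 * K : ℕ) : ℝ) := by exact_mod_cast g2
    simpa [hN] using this
  have hpi : (3 : ℝ) < Real.pi := Real.pi_gt_three
  apply hne
  -- second coordinate
  have hb : b * q' = b' * q := by
    by_contra hbne
    have hsep := frac_sep hq hq' hqN hq'N hbne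
    have hc : |2 * Real.pi * b / (q * N ^ 4) - 2 * Real.pi * b' / (q' * N ^ 4)| ≤ 1 / N ^ 6 := by
      rw [abs_le]
      have e : 1 / N ^ 6 = 1 / (2 * N ^ 6) + 1 / (2 * N ^ 6) := by field_simp; ring
      constructor <;> linarith
    have hc2 : 2 * Real.pi * b / (q * N ^ 4) - 2 * Real.pi * b' / (q' * N ^ 4)
        = (2 * Real.pi / N ^ 4) * ((b : ℝ) / q - (b' : ℝ) / q') := by
      field_simp
    rw [hc2, abs_mul, abs_of_pos (by positivity)] at hc
    have h8 : (2 * Real.pi / N ^ 4) * (1 / N ^ 2) ≤ 1 / N ^ 6 :=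
      le_trans (mul_le_mul_of_nonneg_left hsep (by positivity)) hc
    have h9 : (2 * Real.pi / N ^ 4) * (1 / N ^ 2) = 2 * Real.pi * (1 / N ^ 6) := by
      field_simp
    rw [h9] at h8
    have h10 : 0 < 1 / N ^ 6 := by positivity
    nlinarith
  have hqq : q = q' := by
    apply Nat.dvd_antisymm
    · have : q ∣ b * q' := by rw [hb]; exact Dvd.intro_left _ rfl
      exact (Nat.Coprime.dvd_of_dvd_mul_left h7 this)
    · have : q' ∣ b' * q := by rw [← hb]; exact Dvd.intro_left _ rfl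
      exact (Nat.Coprime.dvd_of_dvd_mul_left g7 this)
  subst hqq
  have hbb : b = b' := Nat.eq_of_mul_eq_mul_right hq hb
  subst hbb
  have haa : a = a' := by
    by_contra hane
    have hint : (1 : ℝ) ≤ |(a : ℝ) - a'| := by
      have h1 : ((a : ℤ) - a') ≠ 0 := by
        intro h
        apply hane
        have : (a : ℤ) = a' := by linarith
        exact_mod_cast this
      have h2 : (1 : ℤ) ≤ |(a : ℤ) - a'| := Int.one_le_abs h1
      have h3 : ((|(a : ℤ) - a'| : ℤ) : ℝ) = |(a : ℝ) - a'| := by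
        push_cast
        rfl
      rw [← h3]
      exact_mod_cast h2
    have hc : |4 * Real.pi * a / (q * N ^ 2) - 4 * Real.pi * a' / (q * N ^ 2)| ≤ 2 / N ^ 3 := by
      rw [abs_le]
      have e : 2 / N ^ 3 = 1 / N ^ 3 + 1 / N ^ 3 := by field_simp; ring
      constructor <;> linarith
    have hc2 : 4 * Real.pi * a / (q * N ^ 2) - 4 * Real.pi * a' / (q * N ^ 2)
        = (4 * Real.pi / (q * N ^ 2)) * ((a : ℝ) - a') := by
      field_simp
    rw [hc2, abs_mul, abs_of_pos (by positivity)] at hc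
    have h8 : (4 * Real.pi / (q * N ^ 2)) * 1 ≤ 2 / N ^ 3 :=
      le_trans (mul_le_mul_of_nonneg_left hint (by positivity)) hc
    have h9 : 4 * Real.pi / N ^ 3 ≤ 4 * Real.pi / (q * N ^ 2) := by
      apply div_le_div_of_nonneg_left (by positivity) (by positivity)
      have : (q : ℝ) * N ^ 2 ≤ N * N ^ 2 := mul_le_mul_of_nonneg_right hqN (by positivity)
      calc (q : ℝ) * N ^ 2 ≤ N * N ^ 2 := this
        _ = N ^ 3 := by ring
    have h10 : 4 * Real.pi / N ^ 3 ≤ 2 / N ^ 3 := by linarith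
    rw [div_le_div_iff_of_pos_right (by positivity)] at h10
    linarith
  subst haa
  rfl

theorem volume_boxes_lower (K : ℕ) (hK : 16 ≤ K) :
    ENNReal.ofReal (1 / 131072) ≤ volume (⋃ i ∈ boxIdx K, box K i) := by
  have hK0 : 0 < K := by omega
  rw [measure_biUnion_finset (fun i hi j hj hne => box_disjoint K hK0 hi hj hne)
    (fun i _ => measurableSet_box K i)]
  simp only [volume_box K hK0, Finset.sum_const, nsmul_eq_mul]
  rw [← ENNReal.ofReal_natCast, ← ENNReal.ofReal_mul (by positivity)]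
  apply ENNReal.ofReal_le_ofReal
  rw [card_boxIdx]
  have hsum := sum_totient_sq_lower (4 * K) (by omega)
  push_cast at hsum ⊢
  have hKr : (0 : ℝ) < K := by exact_mod_cast hK0
  have e : ∑ q ∈ (Finset.Icc 3 (4 * K)).filter Odd,
      ((K : ℝ) ^ 2 * (Nat.totient q : ℝ)) * (32 * (K : ℝ) ^ 4 * (Nat.totient q : ℝ))
      = 32 * (K : ℝ) ^ 6 * ∑ q ∈ (Finset.Icc 3 (4 * K)).filter Odd, ((Nat.totient q : ℝ)) ^ 2 := by
    rw [Finset.mul_sum]
    apply Finset.sum_congr rfl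
    intro q _
    ring
  rw [e]
  have h1 : 32 * (K : ℝ) ^ 6 * ((4 * (K : ℝ)) ^ 3 / 2048) * (2 / (4 * (K : ℝ)) ^ 9)
      ≤ 32 * (K : ℝ) ^ 6 * (∑ q ∈ (Finset.Icc 3 (4 * K)).filter Odd, ((Nat.totient q : ℝ)) ^ 2)
        * (2 / (4 * (K : ℝ)) ^ 9) := by
    apply mul_le_mul_of_nonneg_right _ (by positivity)
    exact mul_le_mul_of_nonneg_left hsum (by positivity)
  have h2 : 32 * (K : ℝ) ^ 6 * ((4 * (K : ℝ)) ^ 3 / 2048) * (2 / (4 * (K : ℝ)) ^ 9)
      = 1 / 131072 := by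
    field_simp
    ring
  linarith

theorem boxes_subset (K : ℕ) (hK : 16 ≤ K) :
    (⋃ i ∈ boxIdx K, box K i) ⊆ Set.Icc 0 1 ×ˢ Set.Icc 0 1 := by
  intro z hz
  simp only [Set.mem_iUnion] at hz
  obtain ⟨⟨q, a, b⟩, hi, hz⟩ := hz
  obtain ⟨x, y⟩ := z
  rw [mem_boxIdx] at hi
  obtain ⟨h1, h2, h3, h4, h5, h6, h7⟩ := hi
  simp only at h1 h2 h3 h4 h5 h6 h7
  simp only [box, Set.mem_prod, Set.mem_Icc] at hz
  obtain ⟨⟨x1, x2⟩, y1, y2⟩ := hz
  set N : ℝ := 4 * (K : ℝ) with hN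
  have hK0 : 0 < K := by omega
  have hKr : (16 : ℝ) ≤ K := by exact_mod_cast hK
  have hN64 : 64 ≤ N := by rw [hN]; linarith
  have hNpos : 0 < N := by linarith
  have hq : 0 < q := by omega
  have hqr : (0 : ℝ) < q := by exact_mod_cast hq
  have hqN : (q : ℝ) ≤ N := by
    have : ((q : ℕ) : ℝ) ≤ ((4 * K : ℕ) : ℝ) := by exact_mod_cast h2
    simpa [hN] using this
  have hpi3 : (3 : ℝ) < Real.pi := Real.pi_gt_three
  have hpi4 : Real.pi < 3.15 := Real.pi_lt_d2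
  have ha1 : 1 ≤ a := by
    rcases Nat.eq_zero_or_pos a with h0 | h0
    · subst h0
      rw [Nat.coprime_zero_right] at h5
      omega
    · exact h0
  have hb1 : 1 ≤ b := by
    rcases Nat.eq_zero_or_pos b with h0 | h0
    · subst h0
      rw [Nat.coprime_zero_right] at h7
      omega
    · exact h0
  have har : (1 : ℝ) ≤ a := by exact_mod_cast ha1
  have hbr : (1 : ℝ) ≤ b := by exact_mod_cast hb1
  have ha2 : (a : ℝ) ≤ q * (K : ℝ) ^ 2 := by
    have : ((a : ℕ) : ℝ) ≤ ((q * K ^ 2 : ℕ) : ℝ) := by exact_mod_cast h4.le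
    simpa using this
  have hb2 : (b : ℝ) ≤ q * (32 * (K : ℝ) ^ 4) := by
    have : ((b : ℕ) : ℝ) ≤ ((q * (32 * K ^ 4) : ℕ) : ℝ) := by exact_mod_cast h6.le
    simpa using this
  -- first centre
  have c1up : 4 * Real.pi * a / (q * N ^ 2) ≤ Real.pi / 4 := by
    rw [div_le_iff₀ (by positivity)]
    have : Real.pi / 4 * (q * N ^ 2) = 4 * Real.pi * (q * (K : ℝ) ^ 2) := by rw [hN]; ring
    rw [this]
    exact mul_le_mul_of_nonneg_left ha2 (by positivity)
  have c1lo : 1 / N ^ 3 ≤ 4 * Real.pi * a / (q * N ^ 2) := by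
    rw [div_le_div_iff₀ (by positivity) (by positivity)]
    have h8 : (q : ℝ) * N ^ 2 ≤ N ^ 3 := by
      calc (q : ℝ) * N ^ 2 ≤ N * N ^ 2 := mul_le_mul_of_nonneg_right hqN (by positivity)
        _ = N ^ 3 := by ring
    have h9 : (1 : ℝ) ≤ 4 * Real.pi * a := by nlinarith
    have h10 : 0 < N ^ 3 := by positivity
    nlinarith
  have c2up : 2 * Real.pi * b / (q * N ^ 4) ≤ Real.pi / 4 := by
    rw [div_le_iff₀ (by positivity)]
    have : Real.pi / 4 * (q * N ^ 4) = 2 * Real.pi * (q * (32 * (K : ℝ) ^ 4)) := by rw [hN]; ring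
    rw [this]
    exact mul_le_mul_of_nonneg_left hb2 (by positivity)
  have c2lo : 1 / (2 * N ^ 6) ≤ 2 * Real.pi * b / (q * N ^ 4) := by
    rw [div_le_div_iff₀ (by positivity) (by positivity)]
    have h8 : (q : ℝ) * N ^ 4 ≤ N ^ 6 := by
      calc (q : ℝ) * N ^ 4 ≤ N * N ^ 4 := mul_le_mul_of_nonneg_right hqN (by positivity)
        _ = N ^ 5 := by ring
        _ ≤ N ^ 6 := pow_le_pow_right₀ (by linarith) (by norm_num)
    have h9 : (1 : ℝ) ≤ 2 * Real.pi * b := by nlinarith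
    have h10 : 0 < N ^ 6 := by positivity
    nlinarith
  have s1 : 1 / N ^ 3 ≤ 1 / 10 := by
    apply one_div_le_one_div_of_le (by norm_num)
    calc (10 : ℝ) ≤ 64 ^ 3 := by norm_num
      _ ≤ N ^ 3 := pow_le_pow_left₀ (by norm_num) hN64 3
  have s2 : 1 / (2 * N ^ 6) ≤ 1 / 10 := by
    apply one_div_le_one_div_of_le (by norm_num)
    have : (64 : ℝ) ^ 6 ≤ N ^ 6 := pow_le_pow_left₀ (by norm_num) hN64 6
    nlinarith
  simp only [Set.mem_prod, Set.mem_Icc]
  refine ⟨⟨by linarith, by linarith⟩, by linarith, by linarith⟩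

end Vale.Agent.P076
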