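import Mathlib

/-! Elementary bounds for Gaussian sums over the integers. -/

namespace Vale.Agent.P076

open Real

/-- geometric majorant on the nonzero integers -/
theorem hasSum_geom_int (r : ℝ) (h0 : 0 ≤ r) (h1 : r < 1) :
    HasSum (fun j : ℤ => if j = 0 then 0 else r ^ j.natAbs) (r / (1 - r) + r / (1 - r)) := by
  have h := (hasSum_geometric_of_lt_one h0 h1).mul_left r
  have h2 : HasSum (fun n : ℕ => r ^ (n + 1)) (r / (1 - r)) := by
    have e : (fun n : ℕ => r ^ (n + 1)) = fun n : ℕ => r * r ^ n := by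
      ext n; rw [pow_succ]; ring
    rw [e]
    simpa [div_eq_mul_inv] using h
  apply HasSum.of_nat_of_neg_add_one
  · have h3 : HasSum (fun n : ℕ => if (((n + 1 : ℕ) : ℤ)) = 0 then (0 : ℝ) else r ^ ((n + 1 : ℕ) : ℤ).natAbs)
        (r / (1 - r)) := by
      have e : (fun n : ℕ => if (((n + 1 : ℕ) : ℤ)) = 0 then (0 : ℝ) else r ^ ((n + 1 : ℕ) : ℤ).natAbs)
          = fun n : ℕ => r ^ (n + 1) := by
        ext n
        have : (((n + 1 : ℕ) : ℤ)) ≠ 0 := by omega
        rw [if_neg this]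
        congr 1
      rw [e]; exact h2
    have h4 := (hasSum_nat_add_iff
      (f := fun n : ℕ => if ((n : ℤ)) = 0 then (0 : ℝ) else r ^ (n : ℤ).natAbs) 1).1 h3
    simpa using h4
  · have e : (fun n : ℕ => if (-((n : ℤ) + 1)) = 0 then (0 : ℝ) else r ^ (-((n : ℤ) + 1)).natAbs)
          = fun n : ℕ => r ^ (n + 1) := by
      ext n
      have : (-((n : ℤ) + 1)) ≠ 0 := by omega
      rw [if_neg this]
      congr 1
    rw [e]; exact h2

/-- Gaussian sum over the nonzero integers. -/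
theorem tsum_gauss_ne_zero_le (κ : ℝ) (hκ : 1 ≤ κ) :
    Summable (fun j : ℤ => if j = 0 then 0 else Real.exp (-κ * (j : ℝ) ^ 2)) ∧
    ∑' j : ℤ, (if j = 0 then 0 else Real.exp (-κ * (j : ℝ) ^ 2)) ≤ 4 * Real.exp (-κ) := by
  set r := Real.exp (-κ) with hr
  have h0 : 0 ≤ r := (Real.exp_pos _).le
  have hhalf : r ≤ 1 / 2 := by
    have h1 : r ≤ Real.exp (-1) := Real.exp_le_exp.2 (by linarith)
    have h2 : Real.exp (-1) ≤ 1 / 2 := by
      rw [Real.exp_neg]
      have := Real.exp_one_gt_d9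
      rw [inv_le_comm₀ (Real.exp_pos 1) (by norm_num)]
      linarith
    linarith
  have h1 : r < 1 := by linarith
  have hg := hasSum_geom_int r h0 h1
  have hle : ∀ j : ℤ, (if j = 0 then 0 else Real.exp (-κ * (j : ℝ) ^ 2)) ≤
      (if j = 0 then 0 else r ^ j.natAbs) := by
    intro j
    by_cases hj : j = 0
    · simp [hj]
    · rw [if_neg hj, if_neg hj, hr, ← Real.exp_nat_mul]
      apply Real.exp_le_exp.2
      have h3 : ((j.natAbs : ℕ) : ℝ) = |(j : ℝ)| := by
        rw [Nat.cast_natAbs]; simp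
      rw [h3]
      have h4 : 1 ≤ |(j : ℝ)| := by
        have : (1 : ℤ) ≤ |j| := Int.one_le_abs hj
        exact_mod_cast this
      have h5 : (j : ℝ) ^ 2 = |(j : ℝ)| ^ 2 := (sq_abs _).symm
      rw [h5]
      have h6 : |(j : ℝ)| ≤ |(j : ℝ)| ^ 2 := by nlinarith
      nlinarith
  have hnn : ∀ j : ℤ, 0 ≤ (if j = 0 then 0 else Real.exp (-κ * (j : ℝ) ^ 2)) := by
    intro j
    split_ifs
    · exact le_rfl
    · exact (Real.exp_pos _).le
  have hs : Summable (fun j : ℤ => if j = 0 then 0 else Real.exp (-κ * (j : ℝ) ^ 2)) :=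
    Summable.of_nonneg_of_le hnn hle hg.summable
  refine ⟨hs, ?_⟩
  calc ∑' j : ℤ, (if j = 0 then 0 else Real.exp (-κ * (j : ℝ) ^ 2))
      ≤ ∑' j : ℤ, (if j = 0 then 0 else r ^ j.natAbs) := hs.tsum_le_tsum hle hg.summable
    _ = r / (1 - r) + r / (1 - r) := hg.tsum_eq
    _ ≤ 4 * r := by
        have : r / (1 - r) ≤ 2 * r := by
          rw [div_le_iff₀ (by linarith)]
          nlinarith
        linarith

end Vale.Agent.P076
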