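import Mathlib

/-! Integrability of series of nonnegative functions. -/

namespace Vale.Agent.P076

open MeasureTheory

theorem tsum_eq_toReal_tsum_ofReal {ι : Type*} (f : ι → ℝ) (hnn : ∀ i, 0 ≤ f i) :
    ∑' i, f i = (∑' i, ENNReal.ofReal (f i)).toReal := by
  by_cases hs : Summable f
  · rw [← ENNReal.ofReal_tsum_of_nonneg hnn hs, ENNReal.toReal_ofReal (tsum_nonneg hnn)]
  · rw [tsum_eq_zero_of_not_summable hs]
    have : ∑' i, ENNReal.ofReal (f i) = ⊤ := by
      by_contra h
      apply hs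
      have h2 := ENNReal.summable_toReal h
      refine h2.congr fun i => ?_
      rw [ENNReal.toReal_ofReal (hnn i)]
    rw [this]; simp

theorem integrable_tsum_of_nonneg {ι : Type*} [Countable ι] {α : Type*} [MeasurableSpace α]
    {μ : Measure α} (f : ι → α → ℝ) (hf : ∀ i, Integrable (f i) μ) (hnn : ∀ i x, 0 ≤ f i x)
    (hsum : Summable (fun i => ∫ x, f i x ∂μ)) :
    Integrable (fun x => ∑' i, f i x) μ ∧ ∫ x, ∑' i, f i x ∂μ = ∑' i, ∫ x, f i x ∂μ := by
  have h1 : (fun x => ∑' i, f i x) = fun x => (∑' i, ENNReal.ofReal (f i x)).toReal := by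
    ext x; exact tsum_eq_toReal_tsum_ofReal _ (fun i => hnn i x)
  have hmeas : ∀ i, AEMeasurable (fun x => ENNReal.ofReal (f i x)) μ := fun i =>
    (hf i).1.aemeasurable.ennreal_ofReal
  have h2 : ∫⁻ x, ∑' i, ENNReal.ofReal (f i x) ∂μ = ∑' i, ENNReal.ofReal (∫ x, f i x ∂μ) := by
    rw [lintegral_tsum hmeas]
    congr 1
    ext i
    rw [ofReal_integral_eq_lintegral_ofReal (hf i) (Filter.Eventually.of_forall (hnn i))]
  have h3 : ∑' i, ENNReal.ofReal (∫ x, f i x ∂μ) ≠ ⊤ := by
    rw [← ENNReal.ofReal_tsum_of_nonneg (fun i => integral_nonneg (hnn i)) hsum]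
    exact ENNReal.ofReal_ne_top
  constructor
  · rw [h1]
    apply integrable_toReal_of_lintegral_ne_top (AEMeasurable.tsum hmeas)
    rw [h2]; exact h3
  · have hsum' : Summable (fun i => ∫ x, ‖f i x‖ ∂μ) := by
      refine hsum.congr fun i => ?_
      congr 1
      ext x
      rw [Real.norm_of_nonneg (hnn i x)]
    exact (integral_tsum_of_summable_integral_norm hf hsum').symm

end Vale.Agent.P076
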