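import Mathlib
import Vale.Agent.P076.GaussTail
import Vale.Agent.P076.TsumInt

/-! Gaussian combs: sums of Gaussian bumps centred on a lattice with a Gaussian envelope. -/

namespace Vale.Agent.P076

open MeasureTheory Real

/-- `comb σ τ D ξ = ∑_ℓ exp(-σ ℓ²) exp(-τ (ξ - D ℓ)²)` -/
noncomputable def comb (σ τ D : ℝ) (ξ : ℝ) : ℝ :=
  ∑' ℓ : ℤ, Real.exp (-σ * (ℓ : ℝ) ^ 2) * Real.exp (-τ * (ξ - D * ℓ) ^ 2)

theorem summable_gauss_int (σ : ℝ) (hσ : 0 < σ) :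
    Summable (fun ℓ : ℤ => Real.exp (-σ * (ℓ : ℝ) ^ 2)) := by
  have h := summable_pow_mul_jacobiTheta₂_term_bound 0 (T := σ / π) (by positivity) 0
  refine h.congr fun ℓ => ?_
  simp only [pow_zero, one_mul]
  congr 1
  have := Real.pi_pos
  field_simp
  ring

theorem tsum_gauss_int_le (σ : ℝ) (hσ : 0 < σ) (hσ1 : σ ≤ 1) :
    ∑' ℓ : ℤ, Real.exp (-σ * (ℓ : ℝ) ^ 2) ≤ 2 * Real.sqrt (π / σ) := by
  have hpi := Real.pi_pos
  have hP := Real.tsum_exp_neg_mul_int_sq (a := σ / π) (by positivity)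
  have e1 : (fun n : ℤ => Real.exp (-π * (σ / π) * (n : ℝ) ^ 2)) =
      fun n : ℤ => Real.exp (-σ * (n : ℝ) ^ 2) := by
    ext n; congr 1; field_simp
  rw [e1] at hP
  rw [hP]
  set κ : ℝ := π ^ 2 / σ with hκ
  have hκ9 : 9 ≤ κ := by
    rw [hκ, le_div_iff₀ hσ]
    have := Real.pi_gt_three
    nlinarith
  have e2 : (fun n : ℤ => Real.exp (-π / (σ / π) * (n : ℝ) ^ 2)) =
      fun n : ℤ => Real.exp (-κ * (n : ℝ) ^ 2) := by
    ext n; congr 1; rw [hκ]; field_simp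
  rw [e2]
  obtain ⟨hs, hT⟩ := tsum_gauss_ne_zero_le κ (by linarith)
  have hs' := summable_gauss_int κ (by linarith)
  have h3 : ∑' n : ℤ, Real.exp (-κ * (n : ℝ) ^ 2) ≤ 2 := by
    rw [hs'.tsum_eq_add_tsum_ite 0]
    have h4 : Real.exp (-κ) ≤ 1 / 10 := by
      rw [Real.exp_neg, inv_le_comm₀ (Real.exp_pos _) (by norm_num)]
      have := Real.add_one_le_exp κ
      norm_num
      linarith
    simp only [Int.cast_zero, ne_eq, OfNat.ofNat_ne_zero, not_false_eq_true, zero_pow, mul_zero,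
      Real.exp_zero]
    linarith
  have h5 : 1 / (σ / π) ^ (1 / 2 : ℝ) = Real.sqrt (π / σ) := by
    rw [← Real.sqrt_eq_rpow, one_div, ← Real.sqrt_inv]
    congr 1
    field_simp
  rw [h5]
  have := Real.sqrt_nonneg (π / σ)
  nlinarith

theorem comb_summable (σ τ D ξ : ℝ) (hσ : 0 < σ) (hτ : 0 ≤ τ) :
    Summable (fun ℓ : ℤ => Real.exp (-σ * (ℓ : ℝ) ^ 2) * Real.exp (-τ * (ξ - D * ℓ) ^ 2)) := by
  refine Summable.of_nonneg_of_le (fun ℓ => by positivity) (fun ℓ => ?_) (summable_gauss_int σ hσ)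
  have : Real.exp (-τ * (ξ - D * ℓ) ^ 2) ≤ 1 := by
    apply Real.exp_le_one_iff.2
    have : 0 ≤ τ * (ξ - D * ℓ) ^ 2 := by positivity
    linarith
  calc Real.exp (-σ * (ℓ : ℝ) ^ 2) * Real.exp (-τ * (ξ - D * ℓ) ^ 2)
      ≤ Real.exp (-σ * (ℓ : ℝ) ^ 2) * 1 := by gcongr
    _ = _ := mul_one _

theorem integrable_bump (τ c : ℝ) (hτ : 0 < τ) :
    Integrable (fun ξ : ℝ => Real.exp (-τ * (ξ - c) ^ 2)) :=
  (integrable_exp_neg_mul_sq hτ).comp_sub_right c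

theorem integral_bump (τ c : ℝ) :
    ∫ ξ : ℝ, Real.exp (-τ * (ξ - c) ^ 2) = Real.sqrt (π / τ) := by
  rw [integral_sub_right_eq_self (fun ξ : ℝ => Real.exp (-τ * ξ ^ 2)) c, integral_gaussian]

theorem comb_integrable (σ τ D : ℝ) (hσ : 0 < σ) (hτ : 0 < τ) :
    Integrable (comb σ τ D) ∧
      ∫ ξ, comb σ τ D ξ = Real.sqrt (π / τ) * ∑' ℓ : ℤ, Real.exp (-σ * (ℓ : ℝ) ^ 2) := by
  have hint : ∀ ℓ : ℤ, ∫ ξ : ℝ, Real.exp (-σ * (ℓ : ℝ) ^ 2) * Real.exp (-τ * (ξ - D * ℓ) ^ 2)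
      = Real.exp (-σ * (ℓ : ℝ) ^ 2) * Real.sqrt (π / τ) := by
    intro ℓ
    rw [integral_const_mul, integral_bump]
  have h := integrable_tsum_of_nonneg (μ := volume)
    (fun (ℓ : ℤ) (ξ : ℝ) => Real.exp (-σ * (ℓ : ℝ) ^ 2) * Real.exp (-τ * (ξ - D * ℓ) ^ 2))
    (fun ℓ => (integrable_bump τ (D * ℓ) hτ).const_mul _)
    (fun ℓ ξ => by positivity)
    (by
      simp_rw [hint]
      exact (summable_gauss_int σ hσ).mul_right _)
  refine ⟨h.1, ?_⟩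
  have h2 := h.2
  simp_rw [hint] at h2
  rw [tsum_mul_right] at h2
  rw [mul_comm]
  exact h2

theorem comb_nonneg (σ τ D ξ : ℝ) : 0 ≤ comb σ τ D ξ :=
  tsum_nonneg fun ℓ => by positivity

/-- A comb of well separated bumps is uniformly bounded. -/
theorem comb_le_three (σ τ D ξ : ℝ) (hσ : 0 < σ) (hτ : 0 < τ) (hD : 0 < D) (hsep : 4 ≤ τ * D ^ 2) :
    comb σ τ D ξ ≤ 3 := by
  set ℓ₀ : ℤ := round (ξ / D) with hℓ₀
  set κ : ℝ := τ * D ^ 2 / 4 with hκ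
  have hκ1 : 1 ≤ κ := by rw [hκ]; linarith
  obtain ⟨hsT, hT⟩ := tsum_gauss_ne_zero_le κ hκ1
  have hsT' : Summable (fun n : ℤ => if n - ℓ₀ = 0 then 0 else Real.exp (-κ * ((n - ℓ₀ : ℤ) : ℝ) ^ 2)) :=
    ((Equiv.subRight ℓ₀).summable_iff
      (f := fun j : ℤ => if j = 0 then 0 else Real.exp (-κ * (j : ℝ) ^ 2))).2 hsT
  have hT' : ∑' n : ℤ, (if n - ℓ₀ = 0 then 0 else Real.exp (-κ * ((n - ℓ₀ : ℤ) : ℝ) ^ 2))
      = ∑' j : ℤ, (if j = 0 then 0 else Real.exp (-κ * (j : ℝ) ^ 2)) :=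
    (Equiv.subRight ℓ₀).tsum_eq (fun j : ℤ => if j = 0 then 0 else Real.exp (-κ * (j : ℝ) ^ 2))
  have hs := comb_summable σ τ D ξ hσ hτ.le
  have hround : |ξ - D * ℓ₀| ≤ D / 2 := by
    have h1 := abs_sub_round (ξ / D)
    have h2 : ξ - D * ℓ₀ = D * (ξ / D - ℓ₀) := by field_simp
    rw [h2, abs_mul, abs_of_pos hD]
    nlinarith
  have hterm : ∀ n : ℤ, (if n = ℓ₀ then 0 else
      Real.exp (-σ * (n : ℝ) ^ 2) * Real.exp (-τ * (ξ - D * n) ^ 2)) ≤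
      (if n - ℓ₀ = 0 then 0 else Real.exp (-κ * ((n - ℓ₀ : ℤ) : ℝ) ^ 2)) := by
    intro n
    by_cases hn : n = ℓ₀
    · simp [hn]
    · rw [if_neg hn, if_neg (sub_ne_zero.2 hn)]
      have h1 : Real.exp (-σ * (n : ℝ) ^ 2) ≤ 1 := by
        apply Real.exp_le_one_iff.2
        have : 0 ≤ σ * (n : ℝ) ^ 2 := by positivity
        linarith
      have hj : (1 : ℝ) ≤ |((n - ℓ₀ : ℤ) : ℝ)| := by
        have : (1 : ℤ) ≤ |n - ℓ₀| := Int.one_le_abs (sub_ne_zero.2 hn)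
        exact_mod_cast this
      set j : ℝ := ((n - ℓ₀ : ℤ) : ℝ) with hjdef
      have h2 : ξ - D * n = (ξ - D * ℓ₀) - D * j := by
        rw [hjdef]; push_cast; ring
      have h3 : D * |j| / 2 ≤ |ξ - D * n| := by
        rw [h2]
        have h4 := abs_sub_abs_le_abs_sub (D * j) (ξ - D * ℓ₀)
        have h4' : |D * j - (ξ - D * ℓ₀)| = |ξ - D * ℓ₀ - D * j| := abs_sub_comm _ _
        rw [abs_mul, abs_of_pos hD, h4'] at h4
        nlinarith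
      have h5 : (D * |j| / 2) ^ 2 ≤ (ξ - D * n) ^ 2 := by
        rw [← sq_abs (ξ - D * n)]
        apply pow_le_pow_left₀ (by positivity) h3
      have h6 : Real.exp (-τ * (ξ - D * n) ^ 2) ≤ Real.exp (-κ * j ^ 2) := by
        apply Real.exp_le_exp.2
        have h7 : κ * j ^ 2 = τ * (D * |j| / 2) ^ 2 := by
          rw [hκ, div_pow, mul_pow, sq_abs]; ring
        have h8 : τ * (D * |j| / 2) ^ 2 ≤ τ * (ξ - D * n) ^ 2 := by gcongr
        linarith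
      calc Real.exp (-σ * (n : ℝ) ^ 2) * Real.exp (-τ * (ξ - D * n) ^ 2)
          ≤ 1 * Real.exp (-κ * j ^ 2) := by gcongr
        _ = _ := one_mul _
  unfold comb
  rw [hs.tsum_eq_add_tsum_ite ℓ₀]
  have hfirst : Real.exp (-σ * (ℓ₀ : ℝ) ^ 2) * Real.exp (-τ * (ξ - D * ℓ₀) ^ 2) ≤ 1 := by
    rw [← Real.exp_add]
    apply Real.exp_le_one_iff.2
    have : 0 ≤ σ * (ℓ₀ : ℝ) ^ 2 := by positivity
    have : 0 ≤ τ * (ξ - D * ℓ₀) ^ 2 := by positivity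
    linarith
  have hs2 : Summable (fun n : ℤ => if n = ℓ₀ then 0 else
      Real.exp (-σ * (n : ℝ) ^ 2) * Real.exp (-τ * (ξ - D * n) ^ 2)) := by
    refine Summable.of_nonneg_of_le (fun n => ?_) hterm hsT'
    split_ifs
    · exact le_rfl
    · positivity
  have htail := hs2.tsum_le_tsum hterm hsT'
  rw [hT'] at htail
  have h9 : Real.exp (-κ) ≤ 1 / 2 := by
    rw [Real.exp_neg, inv_le_comm₀ (Real.exp_pos _) (by norm_num)]
    have := Real.add_one_le_exp κ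
    norm_num
    linarith
  linarith

end Vale.Agent.P076
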