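import Mathlib
import Vale.Agent.P076.Comb
import Vale.Agent.P076.Packet

/-! Exact Schroedinger evolution of a Gaussian comb. -/

namespace Vale.Agent.P076

open MeasureTheory Complex Real

theorem zeta_ne_zero (t : ℝ) : (1 + 2 * I * (t : ℂ)) ≠ 0 := by
  intro h
  have := congrArg Complex.re h
  simp at this

theorem comb_evol (σ D t x : ℝ) (hσ : 0 < σ) :
    ∫ ξ : ℝ, osc (I * t) x ξ * (comb σ (1 / 2) D ξ : ℂ) =
      (2 * π / (1 + 2 * I * t)) ^ (1 / 2 : ℂ) * cexp (-(x : ℂ) ^ 2 / (2 * (1 + 2 * I * t))) *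
        ∑' ℓ : ℤ, cexp (-((σ : ℂ) + I * D ^ 2 * t / (1 + 2 * I * t)) * (ℓ : ℂ) ^ 2 +
          I * (D * x / (1 + 2 * I * t)) * ℓ) := by
  have hζ := zeta_ne_zero t
  set F : ℤ → ℝ → ℂ := fun ℓ ξ => osc (I * t) x ξ *
    ((Real.exp (-σ * (ℓ : ℝ) ^ 2) * Real.exp (-(1 / 2) * (ξ - D * ℓ) ^ 2) : ℝ) : ℂ) with hF
  have hb : (-(I * (t : ℂ) + 1 / 2)).re < 0 := by simp
  have hFq : ∀ ℓ : ℤ, F ℓ = fun ξ : ℝ => cexp (-(I * (t : ℂ) + 1 / 2) * (ξ : ℂ) ^ 2 +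
      (I * x + D * ℓ) * ξ + (-(σ : ℂ) * (ℓ : ℂ) ^ 2 - (D : ℂ) ^ 2 * (ℓ : ℂ) ^ 2 / 2)) := by
    intro ℓ
    ext ξ
    rw [hF]
    simp only
    unfold osc
    rw [← Real.exp_add, Complex.ofReal_exp, ← Complex.exp_add]
    congr 1
    push_cast
    ring
  have hFint : ∀ ℓ, Integrable (F ℓ) := by
    intro ℓ
    rw [hFq ℓ]
    exact integrable_cexp_quadratic' hb _ _
  have hnorm : ∀ ℓ ξ, ‖F ℓ ξ‖ = Real.exp (-σ * (ℓ : ℝ) ^ 2) * Real.exp (-(1 / 2) * (ξ - D * ℓ) ^ 2) := by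
    intro ℓ ξ
    rw [hF]
    simp only
    rw [norm_mul, norm_osc, Complex.norm_real, Real.norm_of_nonneg (by positivity)]
    simp
  have hsum : Summable (fun ℓ : ℤ => ∫ ξ, ‖F ℓ ξ‖) := by
    simp_rw [hnorm, integral_const_mul, integral_bump]
    exact (summable_gauss_int σ hσ).mul_right _
  have h1 := integral_tsum_of_summable_integral_norm hFint hsum
  have h2 : (fun ξ : ℝ => osc (I * t) x ξ * (comb σ (1 / 2) D ξ : ℂ)) = fun ξ => ∑' ℓ, F ℓ ξ := by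
    ext ξ
    rw [hF]
    simp only
    rw [tsum_mul_left]
    congr 1
    unfold comb
    rw [Complex.ofReal_tsum]
  rw [h2, ← h1, ← tsum_mul_left]
  congr 1
  ext ℓ
  rw [hFq ℓ, integral_cexp_quadratic hb, mul_assoc, ← Complex.exp_add]
  have hbz : -(I * (t : ℂ) + 1 / 2) = -((1 + 2 * I * t) / 2) := by ring
  rw [hbz]
  congr 2
  · field_simp
  · field_simp
    ring_nf
    simp only [I_sq]
    ring

end Vale.Agent.P076
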