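import Mathlib

/-! Modulus of quadratic Gauss sums with odd modulus. -/

namespace Vale.Agent.P076

open Complex Finset

/-- Quadratic Gauss sum over `ZMod q` written with the standard additive character. -/
theorem gaussZMod_norm_sq (q : ℕ) [NeZero q] (hq : Odd q) (a n : ZMod q) (ha : IsUnit a) :
    ‖∑ x : ZMod q, ZMod.stdAddChar (-a * x ^ 2 + n * x)‖ ^ 2 = q := by
  classical
  set ψ : AddChar (ZMod q) ℂ := ZMod.stdAddChar with hψ
  have hprim : ψ.IsPrimitive := ZMod.isPrimitive_stdAddChar q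
  have h2 : IsUnit (2 : ZMod q) := by
    have : Nat.Coprime 2 q := by
      rw [Nat.coprime_two_left]
      exact hq
    have := (ZMod.isUnit_iff_coprime 2 q).2 this
    simpa using this
  have key : (∑ x : ZMod q, ψ (-a * x ^ 2 + n * x)) * (starRingEnd ℂ) (∑ x : ZMod q, ψ (-a * x ^ 2 + n * x))
      = q := by
    rw [map_sum, Finset.sum_mul_sum]
    have h1 : ∀ x y : ZMod q, ψ (-a * x ^ 2 + n * x) * (starRingEnd ℂ) (ψ (-a * y ^ 2 + n * y))
        = ψ ((-a * x ^ 2 + n * x) - (-a * y ^ 2 + n * y)) := by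
      intro x y
      rw [← AddChar.map_neg_eq_conj, ← AddChar.map_add_eq_mul, sub_eq_add_neg]
    simp_rw [h1]
    rw [Finset.sum_comm]
    have h3 : ∀ y : ZMod q, ∑ x : ZMod q, ψ ((-a * x ^ 2 + n * x) - (-a * y ^ 2 + n * y))
        = ∑ h : ZMod q, ψ (-a * h ^ 2 + n * h) * ψ (y * (-2 * a * h)) := by
      intro y
      rw [← Equiv.sum_comp (Equiv.addRight y)]
      refine Finset.sum_congr rfl fun h _ => ?_
      rw [← AddChar.map_add_eq_mul]
      congr 1
      simp only [Equiv.coe_addRight]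
      ring
    simp_rw [h3]
    rw [Finset.sum_comm]
    simp_rw [← Finset.mul_sum, AddChar.sum_mulShift _ hprim]
    have h4 : ∀ h : ZMod q, (-2 * a * h = 0) ↔ h = 0 := by
      intro h
      have hu : IsUnit (-2 * a : ZMod q) := (h2.neg).mul ha
      constructor
      · intro hh
        exact (hu.mul_right_eq_zero).1 hh
      · rintro rfl; simp
    simp_rw [h4]
    simp [ZMod.card]
  have : ((‖∑ x : ZMod q, ψ (-a * x ^ 2 + n * x)‖ ^ 2 : ℝ) : ℂ) = (q : ℂ) := by
    rw [← key, Complex.mul_conj, Complex.normSq_eq_norm_sq]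
  exact_mod_cast this

theorem sum_zmod_eq_sum_fin (q : ℕ) [NeZero q] (f : ZMod q → ℂ) :
    ∑ x : ZMod q, f x = ∑ r : Fin q, f ((r : ℕ) : ZMod q) := by
  refine Finset.sum_bij' (fun x _ => (⟨x.val, ZMod.val_lt x⟩ : Fin q)) (fun r _ => ((r : ℕ) : ZMod q))
    ?_ ?_ ?_ ?_ ?_
  · intro x _; exact Finset.mem_univ _
  · intro r _; exact Finset.mem_univ _
  · intro x _; simp
  · intro r _
    ext
    simp [ZMod.val_natCast, Nat.mod_eq_of_lt r.2]
  · intro x _; simp

/-- The quadratic Gauss sum with explicit exponentials: modulus `√q`. -/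
theorem gaussFin_norm_sq (q : ℕ) [NeZero q] (hq : Odd q) (a n : ℤ) (ha : IsCoprime a (q : ℤ)) :
    ‖∑ r : Fin q, cexp (-(2 * Real.pi * I * a * ((r : ℕ) : ℂ) ^ 2 / q)) *
        cexp (2 * Real.pi * I * n * ((r : ℕ) : ℂ) / q)‖ ^ 2 = q := by
  have hu : IsUnit ((a : ZMod q)) := by
    have : IsCoprime a (q : ℤ) := ha
    rw [Int.isCoprime_iff_gcd_eq_one] at this
    have h2 : Nat.Coprime a.natAbs q := by
      simpa [Int.gcd] using this
    have h3 := (ZMod.isUnit_iff_coprime a.natAbs q).2 h2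
    rcases Int.natAbs_eq a with h | h
    · rw [h]; simpa using h3
    · rw [h]; simpa using h3
  rw [← gaussZMod_norm_sq q hq (a : ZMod q) (n : ZMod q) hu, sum_zmod_eq_sum_fin]
  congr 2
  refine Finset.sum_congr rfl fun r _ => ?_
  have : (-(a : ZMod q) * (((r : ℕ) : ZMod q)) ^ 2 + (n : ZMod q) * ((r : ℕ) : ZMod q))
      = (((-a * ((r : ℕ) : ℤ) ^ 2 + n * ((r : ℕ) : ℤ)) : ℤ) : ZMod q) := by
    push_cast; ring
  rw [this, ZMod.stdAddChar_coe, ← Complex.exp_add]
  congr 1
  push_cast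
  ring

end Vale.Agent.P076
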