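import Mathlib
import Vale.Agent.P076.GaussSum

/-! Theta sums with periodic coefficients: Poisson summation in residue classes. -/

namespace Vale.Agent.P076

open Complex Finset Real

theorem summable_cexp_quad (A B C : ℂ) (hA : A.re < 0) :
    Summable (fun n : ℤ => cexp (A * (n : ℂ) ^ 2 + B * n + C)) := by
  have h := (summable_jacobiTheta₂_term_iff (B / (2 * π * I)) (A / (π * I))).2 (by
    have : (A / (π * I)).im = - A.re / π := by
      have : A / (π * I) = -(A * I) / π := by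
        field_simp
        rw [I_sq]; ring
      rw [this]
      simp [Complex.div_ofReal_im]
    rw [this]
    have := Real.pi_pos
    apply div_pos _ this
    linarith)
  have h2 := h.mul_right (cexp C)
  refine h2.congr fun n => ?_
  rw [jacobiTheta₂_term, ← Complex.exp_add]
  congr 1
  have hpi : (π : ℂ) ≠ 0 := by exact_mod_cast Real.pi_ne_zero
  field_simp
  ring

theorem tsum_int_residue (q : ℕ) [NeZero q] (F : ℤ → ℂ) (hF : Summable F) :
    ∑' ℓ : ℤ, F ℓ = ∑ r : Fin q, ∑' m : ℤ, F (m * q + ((r : ℕ) : ℤ)) := by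
  have h0 : ∑' p : ℤ × Fin q, F (p.1 * q + ((p.2 : ℕ) : ℤ)) = ∑' ℓ : ℤ, F ℓ :=
    (Int.divModEquiv q).symm.tsum_eq F
  have hs0 : Summable (fun p : ℤ × Fin q => F (p.1 * q + ((p.2 : ℕ) : ℤ))) :=
    ((Int.divModEquiv q).symm.summable_iff).2 hF
  have hs : Summable (fun p : Fin q × ℤ => F (p.2 * q + ((p.1 : ℕ) : ℤ))) :=
    ((Equiv.prodComm (Fin q) ℤ).summable_iff).2 hs0
  have h1 : ∑' p : Fin q × ℤ, F (p.2 * q + ((p.1 : ℕ) : ℤ)) =
      ∑' p : ℤ × Fin q, F (p.1 * q + ((p.2 : ℕ) : ℤ)) :=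
    (Equiv.prodComm (Fin q) ℤ).tsum_eq (fun p : ℤ × Fin q => F (p.1 * q + ((p.2 : ℕ) : ℤ)))
  rw [← h0, ← h1, hs.tsum_prod' (fun r => hs.prod_factor r), tsum_fintype]

theorem theta_split (q : ℕ) [NeZero q] (c : ℤ → ℂ) (hc : ∀ ℓ m : ℤ, c (m * q + ℓ) = c ℓ)
    (hc1 : ∀ ℓ, ‖c ℓ‖ ≤ 1) (α β : ℂ) (hα : 0 < α.re) :
    ∑' ℓ : ℤ, c ℓ * cexp (-α * (ℓ : ℂ) ^ 2 + I * β * ℓ) =
      1 / (α * q ^ 2 / π) ^ (1 / 2 : ℂ) *
        ∑' n : ℤ, (∑ r : Fin q, c ((r : ℕ) : ℤ) * cexp (2 * π * I * n * ((r : ℕ) : ℂ) / q)) *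
          cexp (-(2 * π * n / q - β) ^ 2 / (4 * α)) := by
  have hpi : (π : ℂ) ≠ 0 := by exact_mod_cast Real.pi_ne_zero
  have hq0 : (q : ℂ) ≠ 0 := by exact_mod_cast NeZero.ne q
  have hα0 : α ≠ 0 := by
    intro h; rw [h] at hα; simp at hα
  set F : ℤ → ℂ := fun ℓ => c ℓ * cexp (-α * (ℓ : ℂ) ^ 2 + I * β * ℓ) with hF
  have hsumE : Summable (fun ℓ : ℤ => cexp (-α * (ℓ : ℂ) ^ 2 + I * β * ℓ)) := by
    have := summable_cexp_quad (-α) (I * β) 0 (by simpa using hα)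
    simpa using this
  have hsumF : Summable F := by
    refine Summable.of_norm_bounded (hsumE.norm) fun ℓ => ?_
    rw [hF]
    simp only [norm_mul]
    calc ‖c ℓ‖ * ‖cexp (-α * (ℓ : ℂ) ^ 2 + I * β * ℓ)‖
        ≤ 1 * ‖cexp (-α * (ℓ : ℂ) ^ 2 + I * β * ℓ)‖ := by
          gcongr
          exact hc1 ℓ
      _ = _ := one_mul _
  have h1 := tsum_int_residue q F hsumF
  rw [h1]
  -- Poisson summation in each class
  set a : ℂ := α * q ^ 2 / π with ha
  have hare : 0 < a.re := by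
    have : a = ((q : ℝ) ^ 2 / π : ℝ) * α := by
      rw [ha]; push_cast; ring
    rw [this, Complex.re_ofReal_mul]
    have hq' : (0 : ℝ) < q := by exact_mod_cast Nat.pos_of_ne_zero (NeZero.ne q)
    positivity
  have h2 : ∀ r : Fin q, ∑' m : ℤ, F (m * q + ((r : ℕ) : ℤ)) =
      1 / a ^ (1 / 2 : ℂ) * ∑' n : ℤ, c ((r : ℕ) : ℤ) * cexp (2 * π * I * n * ((r : ℕ) : ℂ) / q) *
          cexp (-(2 * π * n / q - β) ^ 2 / (4 * α)) := by
    intro r
    set b : ℂ := (I * β * q - 2 * α * ((r : ℕ) : ℂ) * q) / (2 * π) with hb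
    have hP := Complex.tsum_exp_neg_quadratic hare b
    have h3 : ∀ m : ℤ, F (m * q + ((r : ℕ) : ℤ)) =
        (c ((r : ℕ) : ℤ) * cexp (-α * ((r : ℕ) : ℂ) ^ 2 + I * β * ((r : ℕ) : ℂ))) *
          cexp (-π * a * (m : ℂ) ^ 2 + 2 * π * b * m) := by
      intro m
      rw [hF]
      simp only
      rw [hc, mul_assoc (c _), ← Complex.exp_add]
      congr 2
      rw [ha, hb]
      push_cast
      field_simp
      ring
    simp_rw [h3]
    rw [tsum_mul_left, hP, ← tsum_mul_left, ← tsum_mul_left, ← tsum_mul_left]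
    congr 1
    ext n
    have h4 : cexp (-α * ((r : ℕ) : ℂ) ^ 2 + I * β * ((r : ℕ) : ℂ)) * cexp (-π / a * ((n : ℂ) + I * b) ^ 2)
        = cexp (2 * π * I * n * ((r : ℕ) : ℂ) / q) * cexp (-(2 * π * n / q - β) ^ 2 / (4 * α)) := by
      rw [← Complex.exp_add, ← Complex.exp_add]
      congr 1
      rw [ha, hb]
      field_simp
      ring_nf
      have hI3 : I ^ 3 = -I := by rw [pow_succ, I_sq]; ring
      have hI4 : I ^ 4 = 1 := by
        have : I ^ 4 = (I ^ 2) ^ 2 := by ring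
        rw [this, I_sq]; ring
      simp only [hI3, hI4, I_sq]
      ring
    calc c ((r : ℕ) : ℤ) * cexp (-α * ((r : ℕ) : ℂ) ^ 2 + I * β * ((r : ℕ) : ℂ)) *
          (1 / a ^ (1 / 2 : ℂ) * cexp (-π / a * ((n : ℂ) + I * b) ^ 2))
        = 1 / a ^ (1 / 2 : ℂ) * (c ((r : ℕ) : ℤ) * (cexp (-α * ((r : ℕ) : ℂ) ^ 2 + I * β * ((r : ℕ) : ℂ)) *
            cexp (-π / a * ((n : ℂ) + I * b) ^ 2))) := by ring
      _ = _ := by rw [h4]; ring
  simp_rw [h2]
  rw [← Finset.mul_sum]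
  congr 1
  rw [← Summable.tsum_finsetSum]
  · congr 1
    ext n
    rw [Finset.sum_mul]
  · intro r _
    have hs : Summable (fun n : ℤ => cexp (-(2 * π * n / q - β) ^ 2 / (4 * α))) := by
      have := summable_cexp_quad (-(2 * π / q) ^ 2 / (4 * α)) (2 * (2 * π / q) * β / (4 * α))
        (-β ^ 2 / (4 * α)) (by
          have : -(2 * (π : ℂ) / q) ^ 2 / (4 * α) = ((-(2 * π / q) ^ 2 / 4 : ℝ) : ℂ) * α⁻¹ := by
            push_cast; field_simp
          rw [this, Complex.re_ofReal_mul, Complex.inv_re]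
          have hq' : (0 : ℝ) < q := by exact_mod_cast Nat.pos_of_ne_zero (NeZero.ne q)
          have hn : 0 < Complex.normSq α := Complex.normSq_pos.2 hα0
          have : 0 < α.re / Complex.normSq α := div_pos hα hn
          have h5 : -(2 * π / q) ^ 2 / 4 < 0 := by
            have := Real.pi_pos
            have : 0 < (2 * π / q) ^ 2 := by positivity
            linarith
          exact mul_neg_of_neg_of_pos h5 this)
      refine this.congr fun n => ?_
      congr 1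
      field_simp
      ring
    refine Summable.of_norm_bounded (hs.norm) fun n => ?_
    rw [norm_mul, norm_mul]
    have h6 : ‖cexp (2 * π * I * n * ((r : ℕ) : ℂ) / q)‖ = 1 := by
      have : (2 * π * I * n * ((r : ℕ) : ℂ) / q : ℂ) = ((2 * π * n * (r : ℕ) / q : ℝ) : ℂ) * I := by
        push_cast; ring
      rw [this, Complex.norm_exp_ofReal_mul_I]
    rw [h6, mul_one]
    calc ‖c ((r : ℕ) : ℤ)‖ * ‖cexp (-(2 * π * n / q - β) ^ 2 / (4 * α))‖
        ≤ 1 * ‖cexp (-(2 * π * n / q - β) ^ 2 / (4 * α))‖ := by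
          gcongr
          exact hc1 _
      _ = _ := one_mul _

end Vale.Agent.P076
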