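import Mathlib
import Vale.Agent.P076.Theta
import Vale.Agent.P076.GaussTail

/-! Lower bound for theta sums twisted by a periodic coefficient with flat Fourier transform. -/

namespace Vale.Agent.P076

open Complex Finset Real

theorem exp_numeric : (1 : ℝ) / 4 ≤ Real.exp (-(1 / 2)) - 4 * Real.exp (-3) := by
  have h1 : (1 : ℝ) / 2 ≤ Real.exp (-(1 / 2)) := by
    have := Real.add_one_le_exp (-(1 / 2) : ℝ)
    linarith
  have h2 : Real.exp (-3) ≤ 1 / 16 := by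
    have h3 : Real.exp (-3) = (Real.exp 1)⁻¹ ^ 3 := by
      rw [← Real.exp_neg, ← Real.exp_nat_mul]; norm_num
    rw [h3]
    have h4 : (Real.exp 1)⁻¹ ≤ 37 / 100 := by
      rw [inv_le_comm₀ (Real.exp_pos 1) (by norm_num)]
      have := Real.exp_one_gt_d9
      norm_num
      linarith
    have h5 : 0 ≤ (Real.exp 1)⁻¹ := (inv_pos.2 (Real.exp_pos 1)).le
    calc (Real.exp 1)⁻¹ ^ 3 ≤ (37 / 100 : ℝ) ^ 3 := by gcongr
      _ ≤ 1 / 16 := by norm_num
  linarith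

theorem summable_dual (q : ℕ) [NeZero q] (α β : ℂ) (hα : 0 < α.re) :
    Summable (fun n : ℤ => cexp (-(2 * π * n / q - β) ^ 2 / (4 * α))) := by
  have hpi : (π : ℂ) ≠ 0 := by exact_mod_cast Real.pi_ne_zero
  have hq0 : (q : ℂ) ≠ 0 := by exact_mod_cast NeZero.ne q
  have hα0 : α ≠ 0 := by
    intro h; rw [h] at hα; simp at hα
  have := summable_cexp_quad (-(2 * π / q) ^ 2 / (4 * α)) (2 * (2 * π / q) * β / (4 * α))
    (-β ^ 2 / (4 * α)) (by
      have : -(2 * (π : ℂ) / q) ^ 2 / (4 * α) = ((-(2 * π / q) ^ 2 / 4 : ℝ) : ℂ) * α⁻¹ := by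
        push_cast; field_simp
      rw [this, Complex.re_ofReal_mul, Complex.inv_re]
      have hq' : (0 : ℝ) < q := by exact_mod_cast Nat.pos_of_ne_zero (NeZero.ne q)
      have hn : 0 < Complex.normSq α := Complex.normSq_pos.2 hα0
      have : 0 < α.re / Complex.normSq α := div_pos hα hn
      have h5 : -(2 * π / q) ^ 2 / 4 < 0 := by
        have := Real.pi_pos
        have : 0 < (2 * π / q) ^ 2 := by positivity
        linarith
      exact mul_neg_of_neg_of_pos h5 this)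
  refine this.congr fun n => ?_
  congr 1
  field_simp
  ring

theorem theta_lower (q : ℕ) [NeZero q] (c : ℤ → ℂ) (hc : ∀ ℓ m : ℤ, c (m * q + ℓ) = c ℓ)
    (hc1 : ∀ ℓ, ‖c ℓ‖ ≤ 1)
    (hG : ∀ n : ℤ, ‖∑ r : Fin q, c ((r : ℕ) : ℤ) * cexp (2 * π * I * n * ((r : ℕ) : ℂ) / q)‖
      = Real.sqrt q)
    (α : ℝ) (hα : 0 < α) (β : ℂ) (n₀ : ℤ)
    (hκ : 3 ≤ π ^ 2 / (4 * α * q ^ 2))
    (hδ1 : |2 * π * n₀ / q - β.re| ≤ π / q)
    (hδ2 : (2 * π * n₀ / q - β.re) ^ 2 ≤ 2 * α) :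
    (1 / 4) * Real.sqrt (π / (α * q)) ≤
      ‖∑' ℓ : ℤ, c ℓ * cexp (-(α : ℂ) * (ℓ : ℂ) ^ 2 + I * β * ℓ)‖ := by
  have hq' : (0 : ℝ) < q := by exact_mod_cast Nat.pos_of_ne_zero (NeZero.ne q)
  have hpi := Real.pi_pos
  rw [theta_split q c hc hc1 (α : ℂ) β (by simpa using hα)]
  set Ghat : ℤ → ℂ := fun n => ∑ r : Fin q, c ((r : ℕ) : ℤ) * cexp (2 * π * I * n * ((r : ℕ) : ℂ) / q)
    with hGhat
  set E : ℤ → ℂ := fun n => cexp (-(2 * π * n / q - β) ^ 2 / (4 * (α : ℂ))) with hE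
  set δ : ℤ → ℝ := fun n => 2 * π * n / q - β.re with hδ
  set P : ℝ := Real.exp (β.im ^ 2 / (4 * α)) with hP
  have hP1 : 1 ≤ P := by
    rw [hP]; apply Real.one_le_exp; positivity
  have hnormE : ∀ n, ‖E n‖ = P * Real.exp (-(δ n) ^ 2 / (4 * α)) := by
    intro n
    rw [hE, hP, ← Real.exp_add]
    simp only
    rw [Complex.norm_exp]
    congr 1
    have h1 : (-(2 * (π : ℂ) * n / q - β) ^ 2 / (4 * (α : ℂ)))
        = ((1 / (4 * α) : ℝ) : ℂ) * (-(2 * (π : ℂ) * n / q - β) ^ 2) := by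
      push_cast; field_simp
    rw [h1, Complex.re_ofReal_mul]
    have h2 : (-(2 * (π : ℂ) * n / q - β) ^ 2).re = β.im ^ 2 - (δ n) ^ 2 := by
      have h3 : (2 * (π : ℂ) * n / q - β) = ((δ n : ℝ) : ℂ) + ((-β.im : ℝ) : ℂ) * I := by
        apply Complex.ext
        · simp [hδ]
        · simp [hδ]
      rw [h3]
      simp [pow_two]
    rw [h2]
    field_simp
    ring
  have hsE : Summable E := summable_dual q (α : ℂ) β (by simpa using hα)
  have hsGE : Summable (fun n => Ghat n * E n) := by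
    refine Summable.of_norm_bounded ((hsE.norm).mul_left (Real.sqrt q)) fun n => ?_
    rw [norm_mul, hG n]
  set κ : ℝ := π ^ 2 / (4 * α * q ^ 2) with hκdef
  have hkey : ∀ n : ℤ, n ≠ n₀ → Real.exp (-(δ n) ^ 2 / (4 * α)) ≤
      Real.exp (-κ * ((n - n₀ : ℤ) : ℝ) ^ 2) := by
    intro n hn
    apply Real.exp_le_exp.2
    have hj : (1 : ℝ) ≤ |((n - n₀ : ℤ) : ℝ)| := by
      have : (1 : ℤ) ≤ |n - n₀| := Int.one_le_abs (sub_ne_zero.2 hn)
      exact_mod_cast this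
    set j : ℝ := ((n - n₀ : ℤ) : ℝ) with hjdef
    have hδn : δ n = δ n₀ + 2 * π * j / q := by
      rw [hδ, hjdef]; push_cast; field_simp; ring
    have habs : π * |j| / q ≤ |δ n| := by
      have h1 : |2 * π * j / q| = 2 * π * |j| / q := by
        rw [abs_div, abs_mul, abs_mul]
        simp [abs_of_pos hpi, abs_of_pos hq']
      have h2 : |2 * π * j / q| - |δ n₀| ≤ |δ n| := by
        rw [hδn]
        have := abs_sub_abs_le_abs_sub (2 * π * j / q) (-(δ n₀))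
        rw [abs_neg] at this
        calc |2 * π * j / q| - |δ n₀| ≤ |2 * π * j / q - -δ n₀| := this
          _ = |δ n₀ + 2 * π * j / q| := by congr 1; ring
      have h3 : π / q ≤ π * |j| / q := by
        apply div_le_div_of_nonneg_right _ hq'.le
        nlinarith
      have h4 : 2 * π * |j| / q = π * |j| / q + π * |j| / q := by ring
      have h5 : |δ n₀| ≤ π / q := hδ1
      linarith
    have hsq : (π * |j| / q) ^ 2 ≤ (δ n) ^ 2 := by
      rw [← sq_abs (δ n)]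
      apply pow_le_pow_left₀ (by positivity) habs
    have h6 : κ * j ^ 2 = (π * |j| / q) ^ 2 / (4 * α) := by
      rw [hκdef, div_pow, mul_pow, sq_abs]; field_simp
    have h7 : (π * |j| / q) ^ 2 / (4 * α) ≤ (δ n) ^ 2 / (4 * α) := by
      apply div_le_div_of_nonneg_right hsq (by positivity)
    have h8 : -(δ n) ^ 2 / (4 * α) = -((δ n) ^ 2 / (4 * α)) := by ring
    rw [h8]
    linarith
  obtain ⟨hsT, hT⟩ := tsum_gauss_ne_zero_le κ (by linarith)
  -- shifted tail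
  have hsT' : Summable (fun n : ℤ => if n - n₀ = 0 then 0 else Real.exp (-κ * ((n - n₀ : ℤ) : ℝ) ^ 2)) :=
    ((Equiv.subRight n₀).summable_iff
      (f := fun j : ℤ => if j = 0 then 0 else Real.exp (-κ * (j : ℝ) ^ 2))).2 hsT
  have hT' : ∑' n : ℤ, (if n - n₀ = 0 then 0 else Real.exp (-κ * ((n - n₀ : ℤ) : ℝ) ^ 2))
      = ∑' j : ℤ, (if j = 0 then 0 else Real.exp (-κ * (j : ℝ) ^ 2)) :=
    (Equiv.subRight n₀).tsum_eq (fun j : ℤ => if j = 0 then 0 else Real.exp (-κ * (j : ℝ) ^ 2))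
  have hbound : ∀ n : ℤ, ‖(if n = n₀ then 0 else Ghat n * E n)‖ ≤
      (Real.sqrt q * P) * (if n - n₀ = 0 then 0 else Real.exp (-κ * ((n - n₀ : ℤ) : ℝ) ^ 2)) := by
    intro n
    by_cases hn : n = n₀
    · simp [hn]
    · rw [if_neg hn, if_neg (sub_ne_zero.2 hn), norm_mul, hG n, hnormE n, mul_assoc]
      exact mul_le_mul_of_nonneg_left (mul_le_mul_of_nonneg_left (hkey n hn) (by positivity))
        (Real.sqrt_nonneg _)
  have htail : ‖∑' n : ℤ, (if n = n₀ then 0 else Ghat n * E n)‖ ≤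
      (Real.sqrt q * P) * (4 * Real.exp (-3)) := by
    calc ‖∑' n : ℤ, (if n = n₀ then 0 else Ghat n * E n)‖
        ≤ ∑' n : ℤ, (Real.sqrt q * P) *
            (if n - n₀ = 0 then 0 else Real.exp (-κ * ((n - n₀ : ℤ) : ℝ) ^ 2)) :=
          tsum_of_norm_bounded ((hsT'.mul_left _).hasSum) hbound
      _ = (Real.sqrt q * P) * ∑' j : ℤ, (if j = 0 then 0 else Real.exp (-κ * (j : ℝ) ^ 2)) := by
          rw [tsum_mul_left, hT']
      _ ≤ (Real.sqrt q * P) * (4 * Real.exp (-3)) := by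
          gcongr
          refine hT.trans ?_
          gcongr
  have hmain : (Real.sqrt q * P) * Real.exp (-(1 / 2)) ≤ ‖Ghat n₀ * E n₀‖ := by
    rw [norm_mul, hG n₀, hnormE n₀, mul_assoc]
    gcongr
    have : (δ n₀) ^ 2 / (4 * α) ≤ 1 / 2 := by
      rw [div_le_iff₀ (by positivity)]
      have : (δ n₀) ^ 2 ≤ 2 * α := hδ2
      linarith
    have h8 : -(δ n₀) ^ 2 / (4 * α) = -((δ n₀) ^ 2 / (4 * α)) := by ring
    rw [h8]
    linarith
  have hsum : (Real.sqrt q) * (1 / 4) ≤ ‖∑' n : ℤ, Ghat n * E n‖ := by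
    rw [hsGE.tsum_eq_add_tsum_ite n₀]
    have h1 := norm_sub_le_norm_add (Ghat n₀ * E n₀) (∑' n : ℤ, (if n = n₀ then 0 else Ghat n * E n))
    have h2 := exp_numeric
    have h3 : (Real.sqrt q) * (1 / 4) ≤ (Real.sqrt q * P) * (Real.exp (-(1 / 2)) - 4 * Real.exp (-3)) := by
      have hsq : 0 ≤ Real.sqrt q := Real.sqrt_nonneg _
      have : Real.sqrt q * 1 ≤ Real.sqrt q * P := by gcongr
      nlinarith
    nlinarith
  rw [norm_mul]
  have hpre : ‖1 / ((α : ℂ) * (q : ℂ) ^ 2 / (π : ℂ)) ^ (1 / 2 : ℂ)‖ = Real.sqrt (π / (α * q ^ 2)) := by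
    have h1 : ((α : ℂ) * (q : ℂ) ^ 2 / (π : ℂ)) = ((α * q ^ 2 / π : ℝ) : ℂ) := by push_cast; ring
    have h2 : (1 / 2 : ℂ) = ((1 / 2 : ℝ) : ℂ) := by push_cast; ring
    rw [h1, h2, norm_div, norm_one, Complex.norm_cpow_real, Complex.norm_real,
      Real.norm_of_nonneg (by positivity), ← Real.sqrt_eq_rpow, one_div, ← Real.sqrt_inv]
    congr 1
    field_simp
  rw [hpre]
  have hfin : Real.sqrt (π / (α * q)) = Real.sqrt (π / (α * q ^ 2)) * Real.sqrt q := by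
    rw [← Real.sqrt_mul (by positivity)]
    congr 1
    field_simp
  rw [hfin]
  have h0 : 0 ≤ Real.sqrt (π / (α * q ^ 2)) := Real.sqrt_nonneg _
  calc 1 / 4 * (Real.sqrt (π / (α * q ^ 2)) * Real.sqrt q)
      = Real.sqrt (π / (α * q ^ 2)) * (Real.sqrt q * (1 / 4)) := by ring
    _ ≤ _ := by gcongr

end Vale.Agent.P076
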