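import Mathlib
import Vale.Agent.P076.CombEvol
import Vale.Agent.P076.ThetaLower

/-! Lower bound for the evolved comb at rational times and positions. -/

namespace Vale.Agent.P076

open MeasureTheory Complex Real

/-- the quadratic phase `ℓ ↦ exp(-2π i n₁ ℓ² / q)` -/
noncomputable def qphase (q : ℕ) (n₁ : ℤ) (ℓ : ℤ) : ℂ :=
  cexp (-(2 * π * I * n₁ * (ℓ : ℂ) ^ 2 / q))

theorem qphase_periodic (q : ℕ) [NeZero q] (n₁ ℓ m : ℤ) :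
    qphase q n₁ (m * q + ℓ) = qphase q n₁ ℓ := by
  have hq0 : (q : ℂ) ≠ 0 := by exact_mod_cast NeZero.ne q
  unfold qphase
  have : -(2 * π * I * n₁ * (((m * q + ℓ : ℤ)) : ℂ) ^ 2 / q) =
      -(2 * π * I * n₁ * (ℓ : ℂ) ^ 2 / q) + ((-(n₁ * (m ^ 2 * q + 2 * m * ℓ)) : ℤ) : ℂ) * (2 * π * I) := by
    push_cast
    field_simp
    ring
  rw [this, Complex.exp_add, Complex.exp_int_mul_two_pi_mul_I, mul_one]

theorem qphase_norm (q : ℕ) (n₁ ℓ : ℤ) : ‖qphase q n₁ ℓ‖ = 1 := by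
  unfold qphase
  have : -(2 * π * I * n₁ * (ℓ : ℂ) ^ 2 / q) = ((-(2 * π * n₁ * (ℓ : ℝ) ^ 2 / q) : ℝ) : ℂ) * I := by
    push_cast; ring
  rw [this, Complex.norm_exp_ofReal_mul_I]

theorem qphase_gauss (q : ℕ) [NeZero q] (hq : Odd q) (n₁ : ℤ) (h : IsCoprime n₁ (q : ℤ)) (n : ℤ) :
    ‖∑ r : Fin q, qphase q n₁ ((r : ℕ) : ℤ) * cexp (2 * π * I * n * ((r : ℕ) : ℂ) / q)‖
      = Real.sqrt q := by
  have h1 := gaussFin_norm_sq q hq n₁ n h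
  have h2 : ∑ r : Fin q, qphase q n₁ ((r : ℕ) : ℤ) * cexp (2 * π * I * n * ((r : ℕ) : ℂ) / q) =
      ∑ r : Fin q, cexp (-(2 * π * I * n₁ * ((r : ℕ) : ℂ) ^ 2 / q)) *
        cexp (2 * π * I * n * ((r : ℕ) : ℂ) / q) := by
    refine Finset.sum_congr rfl fun r _ => ?_
    unfold qphase
    simp
  rw [h2, ← h1, Real.sqrt_sq (norm_nonneg _)]

theorem comb_peak (σ D t x : ℝ) (hσ : 0 < σ) (q : ℕ) [NeZero q] (hq : Odd q) (n₁ n₂ : ℤ)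
    (hcop : IsCoprime n₁ (q : ℤ))
    (ht : D ^ 2 * t / (1 + 4 * t ^ 2) = 2 * π * n₁ / q)
    (hκ : 3 ≤ π ^ 2 / (4 * (σ + 2 * D ^ 2 * t ^ 2 / (1 + 4 * t ^ 2)) * q ^ 2))
    (hδ1 : |2 * π * n₂ / q - D * x / (1 + 4 * t ^ 2)| ≤ π / q)
    (hδ2 : (2 * π * n₂ / q - D * x / (1 + 4 * t ^ 2)) ^ 2 ≤
      2 * (σ + 2 * D ^ 2 * t ^ 2 / (1 + 4 * t ^ 2))) :
    Real.sqrt (2 * π / Real.sqrt (1 + 4 * t ^ 2)) * Real.exp (-x ^ 2 / (2 * (1 + 4 * t ^ 2))) *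
      ((1 / 4) * Real.sqrt (π / ((σ + 2 * D ^ 2 * t ^ 2 / (1 + 4 * t ^ 2)) * q))) ≤
    ‖∫ ξ : ℝ, osc (I * t) x ξ * (comb σ (1 / 2) D ξ : ℂ)‖ := by
  have hζ := zeta_ne_zero t
  have hden : 0 < 1 + 4 * t ^ 2 := by positivity
  have hq0 : (q : ℂ) ≠ 0 := by exact_mod_cast NeZero.ne q
  set α : ℝ := σ + 2 * D ^ 2 * t ^ 2 / (1 + 4 * t ^ 2) with hα
  have hα0 : 0 < α := by positivity
  have hinv : (1 : ℂ) / (1 + 2 * I * t) = ((1 / (1 + 4 * t ^ 2) : ℝ) : ℂ) * (1 - 2 * I * t) := by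
    have h3 : (1 + 2 * I * (t : ℂ)) * (1 - 2 * I * t) = ((1 + 4 * t ^ 2 : ℝ) : ℂ) := by
      push_cast
      ring_nf
      rw [I_sq]; ring
    have h4 : ((1 + 4 * t ^ 2 : ℝ) : ℂ) ≠ 0 := by exact_mod_cast hden.ne'
    rw [div_eq_iff hζ]
    push_cast at h3 h4 ⊢
    field_simp
    rw [← h3]
    ring
  rw [comb_evol σ D t x hσ]
  set β : ℂ := D * x / (1 + 2 * I * t) with hβ
  have hβre : β.re = D * x / (1 + 4 * t ^ 2) := by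
    have : β = ((D * x / (1 + 4 * t ^ 2) : ℝ) : ℂ) * (1 - 2 * I * t) := by
      rw [hβ, div_eq_mul_one_div, hinv]
      push_cast
      ring
    rw [this, Complex.re_ofReal_mul]
    simp
  have hterm : ∀ ℓ : ℤ, cexp (-((σ : ℂ) + I * D ^ 2 * t / (1 + 2 * I * t)) * (ℓ : ℂ) ^ 2 + I * β * ℓ)
      = qphase q n₁ ℓ * cexp (-(α : ℂ) * (ℓ : ℂ) ^ 2 + I * β * ℓ) := by
    intro ℓ
    unfold qphase
    rw [← Complex.exp_add]
    congr 1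
    have h5 : I * (D : ℂ) ^ 2 * t / (1 + 2 * I * t) =
        I * ((D ^ 2 * t / (1 + 4 * t ^ 2) : ℝ) : ℂ) + ((2 * D ^ 2 * t ^ 2 / (1 + 4 * t ^ 2) : ℝ) : ℂ) := by
      rw [div_eq_mul_one_div, hinv]
      push_cast
      ring_nf
      rw [I_sq]; ring
    rw [h5, ht, hα]
    push_cast
    ring
  simp_rw [hterm]
  rw [norm_mul, norm_mul]
  have hth := theta_lower q (qphase q n₁) (qphase_periodic q n₁) (fun ℓ => (qphase_norm q n₁ ℓ).le)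
    (qphase_gauss q hq n₁ hcop) α hα0 β n₂ hκ (by rw [hβre]; exact hδ1) (by rw [hβre]; exact hδ2)
  have hn1 : ‖(2 * (π : ℂ) / (1 + 2 * I * t)) ^ (1 / 2 : ℂ)‖ = Real.sqrt (2 * π / Real.sqrt (1 + 4 * t ^ 2)) := by
    have h2 : (1 / 2 : ℂ) = ((1 / 2 : ℝ) : ℂ) := by push_cast; ring
    rw [h2, Complex.norm_cpow_real, norm_div, ← Real.sqrt_eq_rpow]
    congr 2
    · simp [abs_of_pos Real.pi_pos]
    · rw [Complex.norm_def, Complex.normSq_apply]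
      congr 1
      simp
      ring
  have hn2 : ‖cexp (-(x : ℂ) ^ 2 / (2 * (1 + 2 * I * t)))‖ = Real.exp (-x ^ 2 / (2 * (1 + 4 * t ^ 2))) := by
    rw [Complex.norm_exp]
    congr 1
    have : -(x : ℂ) ^ 2 / (2 * (1 + 2 * I * t)) = ((-x ^ 2 / (2 * (1 + 4 * t ^ 2)) : ℝ) : ℂ) * (1 - 2 * I * t) := by
      have : -(x : ℂ) ^ 2 / (2 * (1 + 2 * I * t)) = (-(x : ℂ) ^ 2 / 2) * (1 / (1 + 2 * I * t)) := by
        field_simp
      rw [this, hinv]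
      have h4 : ((1 + 4 * t ^ 2 : ℝ) : ℂ) ≠ 0 := by exact_mod_cast hden.ne'
      push_cast at h4 ⊢
      field_simp
    rw [this, Complex.re_ofReal_mul]
    simp
  rw [hn1, hn2]
  gcongr

end Vale.Agent.P076
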