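import Mathlib
import Vale.Agent.P076.Comb
import Vale.Agent.P076.Packet

/-! Norm bounds for the single-scale piece. -/

namespace Vale.Agent.P076

open MeasureTheory Real

/-- the single-scale piece (Fourier side) at scale N -/
noncomputable def piece (N : ℝ) (ξ : ℝ × ℝ) : ℝ :=
  gam1 (N ^ 6) ξ.1 * comb (1 / (2 * N ^ 4)) (1 / 2) (N ^ 4) ξ.2

theorem piece_nonneg (N : ℝ) (ξ : ℝ × ℝ) : 0 ≤ piece N ξ :=
  mul_nonneg (Real.exp_pos _).le (comb_nonneg _ _ _ _)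

theorem gam1_eq (R ξ : ℝ) : gam1 R ξ = Real.exp (-(1 / (2 * R)) * (ξ - R) ^ 2) := by
  unfold gam1
  congr 1
  ring

theorem gam1_sq_eq (R ξ : ℝ) : gam1 R ξ ^ 2 = Real.exp (-(1 / R) * (ξ - R) ^ 2) := by
  unfold gam1
  rw [← Real.exp_nat_mul]
  congr 1
  push_cast
  ring

theorem integral_comb_le (σ τ D : ℝ) (hσ : 0 < σ) (hσ1 : σ ≤ 1) (hτ : 0 < τ) :
    ∫ ξ, comb σ τ D ξ ≤ Real.sqrt (π / τ) * (2 * Real.sqrt (π / σ)) := by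
  rw [(comb_integrable σ τ D hσ hτ).2]
  gcongr
  exact tsum_gauss_int_le σ hσ hσ1

theorem prod_bound (f g : ℝ → ℝ) (hf : Integrable f) (hg : Integrable g) (F : ℝ × ℝ → ℝ)
    (hFm : AEStronglyMeasurable F volume) (hF0 : ∀ ξ, 0 ≤ F ξ) (C : ℝ)
    (hF : ∀ ξ, F ξ ≤ C * (f ξ.1 * g ξ.2)) :
    Integrable F ∧ ∫ ξ, F ξ ≤ C * ((∫ x, f x) * ∫ y, g y) := by
  have hfg : Integrable (fun ξ : ℝ × ℝ => C * (f ξ.1 * g ξ.2)) :=
    (hf.mul_prod hg).const_mul C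
  have hFi : Integrable F := by
    refine hfg.mono' hFm (Filter.Eventually.of_forall fun ξ => ?_)
    rw [Real.norm_of_nonneg (hF0 ξ)]
    exact hF ξ
  refine ⟨hFi, ?_⟩
  calc ∫ ξ, F ξ ≤ ∫ ξ : ℝ × ℝ, C * (f ξ.1 * g ξ.2) := integral_mono hFi hfg hF
    _ = C * ((∫ x, f x) * ∫ y, g y) := by
      rw [integral_const_mul]
      congr 1
      exact integral_prod_mul f g

theorem sqrt_bd (c M x : ℝ) (hc : 0 ≤ c) (hM : 0 ≤ M) (h : x ≤ c ^ 2 * M ^ 2) :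
    Real.sqrt x ≤ c * M := by
  apply Real.sqrt_le_iff.2
  refine ⟨by positivity, ?_⟩
  rw [mul_pow]
  exact h

theorem piece_integrable (N : ℝ) (hN : 2 ≤ N) : Integrable (piece N) := by
  have hN0 : 0 < N := by linarith
  have h1 : Integrable (gam1 (N ^ 6)) := by
    have : gam1 (N ^ 6) = fun ξ => Real.exp (-(1 / (2 * N ^ 6)) * (ξ - N ^ 6) ^ 2) := by
      ext ξ; exact gam1_eq _ _
    rw [this]
    exact integrable_bump _ _ (by positivity)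
  have h2 := (comb_integrable (1 / (2 * N ^ 4)) (1 / 2) (N ^ 4) (by positivity) (by norm_num)).1
  exact h1.mul_prod h2

theorem inv_pow_le_one (N : ℝ) (hN : 2 ≤ N) (c : ℝ) (hc : 1 ≤ c) : 1 / (c * N ^ 4) ≤ 1 := by
  have hN1 : (1 : ℝ) ≤ N ^ 4 := one_le_pow₀ (by linarith)
  rw [div_le_one (by positivity)]
  nlinarith

theorem integral_piece_le (N : ℝ) (hN : 2 ≤ N) : ∫ ξ, piece N ξ ≤ 40 * N ^ 5 := by
  have hN0 : 0 < N := by linarith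
  have hpi := Real.pi_lt_d4
  have hpi0 := Real.pi_pos
  have e : ∫ ξ, piece N ξ = (∫ x, gam1 (N ^ 6) x) *
      ∫ y, comb (1 / (2 * N ^ 4)) (1 / 2) (N ^ 4) y :=
    integral_prod_mul (gam1 (N ^ 6)) (comb (1 / (2 * N ^ 4)) (1 / 2) (N ^ 4))
  rw [e]
  have h1 : ∫ x, gam1 (N ^ 6) x ≤ 2.51 * N ^ 3 := by
    have : gam1 (N ^ 6) = fun ξ => Real.exp (-(1 / (2 * N ^ 6)) * (ξ - N ^ 6) ^ 2) := by
      ext ξ; exact gam1_eq _ _
    rw [this, integral_bump]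
    apply sqrt_bd _ _ _ (by norm_num) (by positivity)
    have : π / (1 / (2 * N ^ 6)) = 2 * π * (N ^ 3) ^ 2 := by field_simp
    rw [this]
    have : 0 ≤ (N ^ 3) ^ 2 := by positivity
    nlinarith
  have h2 : ∫ y, comb (1 / (2 * N ^ 4)) (1 / 2) (N ^ 4) y ≤ 2.51 * (2 * (2.51 * N ^ 2)) := by
    refine (integral_comb_le _ _ _ (by positivity) (inv_pow_le_one N hN 2 (by norm_num))
      (by norm_num)).trans ?_
    have a1 : Real.sqrt (π / (1 / 2)) ≤ 2.51 * 1 := by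
      apply sqrt_bd _ _ _ (by norm_num) (by norm_num)
      have : π / (1 / 2) = 2 * π := by ring
      rw [this]; norm_num; linarith
    have a2 : Real.sqrt (π / (1 / (2 * N ^ 4))) ≤ 2.51 * N ^ 2 := by
      apply sqrt_bd _ _ _ (by norm_num) (by positivity)
      have : π / (1 / (2 * N ^ 4)) = 2 * π * (N ^ 2) ^ 2 := by field_simp
      rw [this]
      have : 0 ≤ (N ^ 2) ^ 2 := by positivity
      nlinarith
    rw [mul_one] at a1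
    gcongr
  have h0 : 0 ≤ ∫ y, comb (1 / (2 * N ^ 4)) (1 / 2) (N ^ 4) y :=
    integral_nonneg fun y => comb_nonneg _ _ _ _
  calc (∫ x, gam1 (N ^ 6) x) * ∫ y, comb (1 / (2 * N ^ 4)) (1 / 2) (N ^ 4) y
      ≤ (2.51 * N ^ 3) * (2.51 * (2 * (2.51 * N ^ 2))) := by gcongr
    _ = 31.626502 * N ^ 5 := by ring
    _ ≤ 40 * N ^ 5 := by gcongr; norm_num

theorem comb_piece_le_three (N : ℝ) (hN : 2 ≤ N) (y : ℝ) :
    comb (1 / (2 * N ^ 4)) (1 / 2) (N ^ 4) y ≤ 3 := by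
  have hN0 : 0 < N := by linarith
  apply comb_le_three _ _ _ _ (by positivity) (by norm_num) (by positivity)
  have h1 : (2 : ℝ) ^ 4 ≤ N ^ 4 := by gcongr
  nlinarith

theorem piece_sq_le (N : ℝ) (hN : 2 ≤ N) (ξ : ℝ × ℝ) :
    piece N ξ ^ 2 ≤ 3 * (gam1 (N ^ 6) ξ.1 ^ 2 * comb (1 / (2 * N ^ 4)) (1 / 2) (N ^ 4) ξ.2) := by
  unfold piece
  have h3 := comb_piece_le_three N hN ξ.2
  have h0 := comb_nonneg (1 / (2 * N ^ 4)) (1 / 2) (N ^ 4) ξ.2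
  have hg : 0 ≤ gam1 (N ^ 6) ξ.1 ^ 2 := by positivity
  rw [mul_pow]
  have : comb (1 / (2 * N ^ 4)) (1 / 2) (N ^ 4) ξ.2 ^ 2 ≤
      3 * comb (1 / (2 * N ^ 4)) (1 / 2) (N ^ 4) ξ.2 := by nlinarith
  nlinarith

theorem piece_sq (N : ℝ) (hN : 2 ≤ N) :
    Integrable (fun ξ : ℝ × ℝ => piece N ξ ^ 2) ∧ ∫ ξ : ℝ × ℝ, piece N ξ ^ 2 ≤ 100 * N ^ 5 := by
  have hN0 : 0 < N := by linarith
  have hpi := Real.pi_lt_d4
  have hpi0 := Real.pi_pos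
  have e1 : (fun x => gam1 (N ^ 6) x ^ 2) =
      fun ξ => Real.exp (-(1 / N ^ 6) * (ξ - N ^ 6) ^ 2) := by
    ext ξ; exact gam1_sq_eq _ _
  have h1 : Integrable (fun x => gam1 (N ^ 6) x ^ 2) := by
    rw [e1]
    exact integrable_bump _ _ (by positivity)
  have h2 := (comb_integrable (1 / (2 * N ^ 4)) (1 / 2) (N ^ 4) (by positivity) (by norm_num)).1
  have hb := prod_bound _ _ h1 h2 (fun ξ : ℝ × ℝ => piece N ξ ^ 2)
    ((piece_integrable N hN).1.pow 2) (fun ξ => by positivity) 3 (piece_sq_le N hN)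
  refine ⟨hb.1, hb.2.trans ?_⟩
  have i1 : ∫ x, gam1 (N ^ 6) x ^ 2 ≤ 1.78 * N ^ 3 := by
    rw [e1, integral_bump]
    apply sqrt_bd _ _ _ (by norm_num) (by positivity)
    have : π / (1 / N ^ 6) = π * (N ^ 3) ^ 2 := by field_simp
    rw [this]
    have : 0 ≤ (N ^ 3) ^ 2 := by positivity
    nlinarith
  have i2 : ∫ y, comb (1 / (2 * N ^ 4)) (1 / 2) (N ^ 4) y ≤ 2.51 * (2 * (2.51 * N ^ 2)) := by
    refine (integral_comb_le _ _ _ (by positivity) (inv_pow_le_one N hN 2 (by norm_num))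
      (by norm_num)).trans ?_
    have a1 : Real.sqrt (π / (1 / 2)) ≤ 2.51 * 1 := by
      apply sqrt_bd _ _ _ (by norm_num) (by norm_num)
      have : π / (1 / 2) = 2 * π := by ring
      rw [this]; norm_num; linarith
    have a2 : Real.sqrt (π / (1 / (2 * N ^ 4))) ≤ 2.51 * N ^ 2 := by
      apply sqrt_bd _ _ _ (by norm_num) (by positivity)
      have : π / (1 / (2 * N ^ 4)) = 2 * π * (N ^ 2) ^ 2 := by field_simp
      rw [this]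
      have : 0 ≤ (N ^ 2) ^ 2 := by positivity
      nlinarith
    rw [mul_one] at a1
    gcongr
  have h0 : 0 ≤ ∫ y, comb (1 / (2 * N ^ 4)) (1 / 2) (N ^ 4) y :=
    integral_nonneg fun y => comb_nonneg _ _ _ _
  calc 3 * ((∫ x, gam1 (N ^ 6) x ^ 2) * ∫ y, comb (1 / (2 * N ^ 4)) (1 / 2) (N ^ 4) y)
      ≤ 3 * ((1.78 * N ^ 3) * (2.51 * (2 * (2.51 * N ^ 2)))) := by gcongr
    _ = 67.285068 * N ^ 5 := by ring
    _ ≤ 100 * N ^ 5 := by gcongr; norm_num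

theorem rpow_third_le (N y : ℝ) (hN : 1 ≤ N) (hy : 0 ≤ y) :
    y ^ (1 / 3 : ℝ) ≤ N ^ 4 * (1 + y / N ^ 12) := by
  have hN0 : 0 < N := by linarith
  set z : ℝ := y ^ (1 / 3 : ℝ) with hz
  have hz0 : 0 ≤ z := Real.rpow_nonneg hy _
  have hz3 : z ^ 3 = y := by
    rw [hz, ← Real.rpow_natCast, ← Real.rpow_mul hy]
    norm_num
  rw [← hz3]
  set a : ℝ := N ^ 4 with ha
  have ha0 : 0 < a := by positivity
  have e : N ^ 12 = a ^ 3 := by rw [ha]; ring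
  rw [e]
  have key : z * a ^ 2 ≤ a ^ 3 + z ^ 3 := by
    rcases le_total z a with h | h
    · have : 0 ≤ z ^ 3 := by positivity
      have : z * a ^ 2 ≤ a * a ^ 2 := by gcongr
      nlinarith
    · have : z * a ^ 2 ≤ z * z ^ 2 := by gcongr
      have : 0 ≤ a ^ 3 := by positivity
      nlinarith
  have e2 : a * (1 + z ^ 3 / a ^ 3) = (a ^ 3 + z ^ 3) / a ^ 2 := by field_simp
  rw [e2, le_div_iff₀ (by positivity)]
  exact key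

theorem weight_le (N x1 x2 l : ℝ) (hN : 2 ≤ N) :
    (1 + x1 ^ 2 + x2 ^ 2) ^ (1 / 3 : ℝ) ≤
      8 * N ^ 4 * Real.exp ((1 / (2 * N ^ 6)) * (x1 - N ^ 6) ^ 2 + (1 / (4 * N ^ 4)) * l ^ 2 +
        (1 / 4) * (x2 - N ^ 4 * l) ^ 2) := by
  have hN0 : 0 < N := by linarith
  have hN1 : 1 ≤ N := by linarith
  refine (rpow_third_le N _ hN1 (by positivity)).trans ?_
  set u : ℝ := (1 / (2 * N ^ 6)) * (x1 - N ^ 6) ^ 2 + (1 / (4 * N ^ 4)) * l ^ 2 +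
        (1 / 4) * (x2 - N ^ 4 * l) ^ 2 with hu
  have hexp : 1 + u ≤ Real.exp u := by
    have := Real.add_one_le_exp u
    linarith
  have hA : (1 : ℝ) ≤ N ^ 6 := one_le_pow₀ hN1
  have hB : (1 : ℝ) ≤ N ^ 12 := one_le_pow₀ hN1
  have key : 1 + (1 + x1 ^ 2 + x2 ^ 2) / N ^ 12 ≤ 8 * (1 + u) := by
    have e : 8 * (1 + u) = (8 * N ^ 12 + 4 * N ^ 6 * (x1 - N ^ 6) ^ 2 + 2 * N ^ 8 * l ^ 2 +
        2 * N ^ 12 * (x2 - N ^ 4 * l) ^ 2) / N ^ 12 := by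
      rw [hu]; field_simp; ring
    have e2 : 1 + (1 + x1 ^ 2 + x2 ^ 2) / N ^ 12 = (N ^ 12 + (1 + x1 ^ 2 + x2 ^ 2)) / N ^ 12 := by
      field_simp
    rw [e, e2]
    apply div_le_div_of_nonneg_right _ (by positivity)
    have h1 : x1 ^ 2 ≤ 2 * N ^ 12 + 2 * (x1 - N ^ 6) ^ 2 := by nlinarith [sq_nonneg (x1 - 2 * N ^ 6)]
    have h2 : x2 ^ 2 ≤ 2 * N ^ 8 * l ^ 2 + 2 * (x2 - N ^ 4 * l) ^ 2 := by
      nlinarith [sq_nonneg (x2 - 2 * (N ^ 4 * l))]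
    have h3 : (x1 - N ^ 6) ^ 2 ≤ N ^ 6 * (x1 - N ^ 6) ^ 2 := by
      have := sq_nonneg (x1 - N ^ 6)
      nlinarith
    have h4 : (x2 - N ^ 4 * l) ^ 2 ≤ N ^ 12 * (x2 - N ^ 4 * l) ^ 2 := by
      have := sq_nonneg (x2 - N ^ 4 * l)
      nlinarith
    nlinarith
  have hN4 : 0 < N ^ 4 := by positivity
  calc N ^ 4 * (1 + (1 + x1 ^ 2 + x2 ^ 2) / N ^ 12) ≤ N ^ 4 * (8 * (1 + u)) := by gcongr
    _ ≤ N ^ 4 * (8 * Real.exp u) := by gcongr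
    _ = 8 * N ^ 4 * Real.exp u := by ring

theorem term_le (N x1 x2 l : ℝ) (hN : 2 ≤ N) :
    (1 + x1 ^ 2 + x2 ^ 2) ^ (1 / 3 : ℝ) * (gam1 (N ^ 6) x1 ^ 2 *
      (Real.exp (-(1 / (2 * N ^ 4)) * l ^ 2) * Real.exp (-(1 / 2) * (x2 - N ^ 4 * l) ^ 2))) ≤
    8 * N ^ 4 * (Real.exp (-(1 / (2 * N ^ 6)) * (x1 - N ^ 6) ^ 2) *
      (Real.exp (-(1 / (4 * N ^ 4)) * l ^ 2) * Real.exp (-(1 / 4) * (x2 - N ^ 4 * l) ^ 2))) := by
  have hw := weight_le N x1 x2 l hN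
  set u : ℝ := (1 / (2 * N ^ 6)) * (x1 - N ^ 6) ^ 2 + (1 / (4 * N ^ 4)) * l ^ 2 +
        (1 / 4) * (x2 - N ^ 4 * l) ^ 2 with hu
  rw [gam1_sq_eq, ← Real.exp_add, ← Real.exp_add, ← Real.exp_add, ← Real.exp_add]
  have e1 : -(1 / N ^ 6) * (x1 - N ^ 6) ^ 2 +
      (-(1 / (2 * N ^ 4)) * l ^ 2 + -(1 / 2) * (x2 - N ^ 4 * l) ^ 2) = -u + -u := by
    rw [hu]; ring
  have e2 : -(1 / (2 * N ^ 6)) * (x1 - N ^ 6) ^ 2 +
      (-(1 / (4 * N ^ 4)) * l ^ 2 + -(1 / 4) * (x2 - N ^ 4 * l) ^ 2) = -u := by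
    rw [hu]; ring
  rw [e1, e2, Real.exp_add]
  have h1 : Real.exp u * Real.exp (-u) = 1 := by rw [← Real.exp_add]; simp
  calc (1 + x1 ^ 2 + x2 ^ 2) ^ (1 / 3 : ℝ) * (Real.exp (-u) * Real.exp (-u))
      ≤ (8 * N ^ 4 * Real.exp u) * (Real.exp (-u) * Real.exp (-u)) := by gcongr
    _ = 8 * N ^ 4 * (Real.exp u * Real.exp (-u)) * Real.exp (-u) := by ring
    _ = 8 * N ^ 4 * Real.exp (-u) := by rw [h1, mul_one]

theorem omega_le (N x1 x2 : ℝ) (hN : 2 ≤ N) (ω : ℝ → ℝ) (hanti : Antitone ω)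
    (hpos : ∀ r, 0 < ω r) :
    ω (Real.sqrt (x1 ^ 2 + x2 ^ 2)) * Real.exp (-(1 / (2 * N ^ 6)) * (x1 - N ^ 6) ^ 2) ≤
      (ω (N ^ 6 / 2) + ω 0 * Real.exp (-N ^ 6 / 16)) *
        Real.exp (-(1 / (4 * N ^ 6)) * (x1 - N ^ 6) ^ 2) := by
  have hN0 : 0 < N := by linarith
  set R : ℝ := N ^ 6 with hR
  have hR0 : 0 < R := by positivity
  set q : ℝ := (1 / (4 * R)) * (x1 - R) ^ 2 with hq
  have hq0 : 0 ≤ q := by positivity
  have e1 : -(1 / (2 * R)) * (x1 - R) ^ 2 = -q + -q := by rw [hq]; ring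
  have e2 : -(1 / (4 * R)) * (x1 - R) ^ 2 = -q := by rw [hq]; ring
  rw [e1, e2, Real.exp_add]
  have hE : 0 < Real.exp (-q) := Real.exp_pos _
  rw [← mul_assoc]
  apply mul_le_mul_of_nonneg_right _ hE.le
  rcases le_or_gt (R / 2) x1 with h | h
  · have h1 : R / 2 ≤ Real.sqrt (x1 ^ 2 + x2 ^ 2) := by
      apply Real.le_sqrt_of_sq_le
      have : (R / 2) ^ 2 ≤ x1 ^ 2 := by gcongr
      nlinarith [sq_nonneg x2]
    have h2 := hanti h1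
    have h3 : Real.exp (-q) ≤ 1 := Real.exp_le_one_iff.2 (by linarith)
    have h4 : 0 < ω 0 * Real.exp (-R / 16) := mul_pos (hpos 0) (Real.exp_pos _)
    have h5 := hpos (Real.sqrt (x1 ^ 2 + x2 ^ 2))
    nlinarith
  · have h1 : ω (Real.sqrt (x1 ^ 2 + x2 ^ 2)) ≤ ω 0 := hanti (Real.sqrt_nonneg _)
    have h2 : R / 16 ≤ q := by
      have : (R / 2) ^ 2 ≤ (x1 - R) ^ 2 := by nlinarith
      have e : q = (x1 - R) ^ 2 / (4 * R) := by rw [hq]; ring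
      rw [e, le_div_iff₀ (by positivity)]
      nlinarith
    have h3 : Real.exp (-q) ≤ Real.exp (-R / 16) := Real.exp_le_exp.2 (by linarith)
    have h4 := hpos (R / 2)
    have h5 := hpos (Real.sqrt (x1 ^ 2 + x2 ^ 2))
    have h6 := (hpos 0).le
    calc ω (Real.sqrt (x1 ^ 2 + x2 ^ 2)) * Real.exp (-q) ≤ ω 0 * Real.exp (-R / 16) := by gcongr
      _ ≤ _ := by linarith

theorem weighted_comb_le (N x1 x2 : ℝ) (hN : 2 ≤ N) :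
    (1 + x1 ^ 2 + x2 ^ 2) ^ (1 / 3 : ℝ) * (gam1 (N ^ 6) x1 ^ 2 *
      comb (1 / (2 * N ^ 4)) (1 / 2) (N ^ 4) x2) ≤
    8 * N ^ 4 * (Real.exp (-(1 / (2 * N ^ 6)) * (x1 - N ^ 6) ^ 2) *
      comb (1 / (4 * N ^ 4)) (1 / 4) (N ^ 4) x2) := by
  have hN0 : 0 < N := by linarith
  unfold comb
  rw [← tsum_mul_left, ← tsum_mul_left, ← tsum_mul_left, ← tsum_mul_left]
  apply Summable.tsum_le_tsum (fun ℓ : ℤ => term_le N x1 x2 ℓ hN)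
  · exact ((comb_summable _ _ _ _ (by positivity) (by norm_num)).mul_left _).mul_left _
  · exact ((comb_summable _ _ _ _ (by positivity) (by norm_num)).mul_left _).mul_left _

theorem piece_weighted (N : ℝ) (hN : 2 ≤ N) (ω : ℝ → ℝ) (hanti : Antitone ω) (hpos : ∀ r, 0 < ω r) :
    Integrable (fun ξ : ℝ × ℝ => (1 + ξ.1 ^ 2 + ξ.2 ^ 2) ^ (1 / 3 : ℝ) *
      ω (Real.sqrt (ξ.1 ^ 2 + ξ.2 ^ 2)) * piece N ξ ^ 2) ∧
    ∫ ξ : ℝ × ℝ, (1 + ξ.1 ^ 2 + ξ.2 ^ 2) ^ (1 / 3 : ℝ) *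
      ω (Real.sqrt (ξ.1 ^ 2 + ξ.2 ^ 2)) * piece N ξ ^ 2 ≤
      2500 * N ^ 9 * (ω (N ^ 6 / 2) + ω 0 * Real.exp (-N ^ 6 / 16)) := by
  have hN0 : 0 < N := by linarith
  have hpi := Real.pi_lt_d4
  have hpi0 := Real.pi_pos
  set K : ℝ := ω (N ^ 6 / 2) + ω 0 * Real.exp (-N ^ 6 / 16) with hK
  have hK0 : 0 < K := add_pos (hpos _) (mul_pos (hpos 0) (Real.exp_pos _))
  have h1 : Integrable (fun x : ℝ => Real.exp (-(1 / (4 * N ^ 6)) * (x - N ^ 6) ^ 2)) :=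
    integrable_bump _ _ (by positivity)
  have h2 := (comb_integrable (1 / (4 * N ^ 4)) (1 / 4) (N ^ 4) (by positivity) (by norm_num)).1
  have hm : AEStronglyMeasurable (fun ξ : ℝ × ℝ => (1 + ξ.1 ^ 2 + ξ.2 ^ 2) ^ (1 / 3 : ℝ) *
      ω (Real.sqrt (ξ.1 ^ 2 + ξ.2 ^ 2)) * piece N ξ ^ 2) volume := by
    have m1 : Measurable (fun ξ : ℝ × ℝ => (1 + ξ.1 ^ 2 + ξ.2 ^ 2) ^ (1 / 3 : ℝ)) :=
      (by fun_prop : Measurable fun ξ : ℝ × ℝ => 1 + ξ.1 ^ 2 + ξ.2 ^ 2).pow_const _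
    have m2 : Measurable (fun ξ : ℝ × ℝ => ω (Real.sqrt (ξ.1 ^ 2 + ξ.2 ^ 2))) :=
      hanti.measurable.comp (by fun_prop)
    exact (m1.mul m2).aestronglyMeasurable.mul ((piece_integrable N hN).1.pow 2)
  have hb := prod_bound _ _ h1 h2 _ hm
    (fun ξ => by
      have := (hpos (Real.sqrt (ξ.1 ^ 2 + ξ.2 ^ 2))).le
      positivity) (24 * N ^ 4 * K) (fun ξ => by
      have hω := hpos (Real.sqrt (ξ.1 ^ 2 + ξ.2 ^ 2))
      have hW : 0 ≤ (1 + ξ.1 ^ 2 + ξ.2 ^ 2) ^ (1 / 3 : ℝ) := by positivity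
      have hc := comb_nonneg (1 / (4 * N ^ 4)) (1 / 4) (N ^ 4) ξ.2
      calc (1 + ξ.1 ^ 2 + ξ.2 ^ 2) ^ (1 / 3 : ℝ) * ω (Real.sqrt (ξ.1 ^ 2 + ξ.2 ^ 2)) * piece N ξ ^ 2
          ≤ (1 + ξ.1 ^ 2 + ξ.2 ^ 2) ^ (1 / 3 : ℝ) * ω (Real.sqrt (ξ.1 ^ 2 + ξ.2 ^ 2)) *
            (3 * (gam1 (N ^ 6) ξ.1 ^ 2 * comb (1 / (2 * N ^ 4)) (1 / 2) (N ^ 4) ξ.2)) := by
            gcongr
            exact piece_sq_le N hN ξ
        _ = 3 * ω (Real.sqrt (ξ.1 ^ 2 + ξ.2 ^ 2)) * ((1 + ξ.1 ^ 2 + ξ.2 ^ 2) ^ (1 / 3 : ℝ) *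
            (gam1 (N ^ 6) ξ.1 ^ 2 * comb (1 / (2 * N ^ 4)) (1 / 2) (N ^ 4) ξ.2)) := by ring
        _ ≤ 3 * ω (Real.sqrt (ξ.1 ^ 2 + ξ.2 ^ 2)) *
            (8 * N ^ 4 * (Real.exp (-(1 / (2 * N ^ 6)) * (ξ.1 - N ^ 6) ^ 2) *
              comb (1 / (4 * N ^ 4)) (1 / 4) (N ^ 4) ξ.2)) := by
            apply mul_le_mul_of_nonneg_left _ (by positivity)
            exact weighted_comb_le N ξ.1 ξ.2 hN
        _ = 24 * N ^ 4 * (ω (Real.sqrt (ξ.1 ^ 2 + ξ.2 ^ 2)) *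
              Real.exp (-(1 / (2 * N ^ 6)) * (ξ.1 - N ^ 6) ^ 2)) *
              comb (1 / (4 * N ^ 4)) (1 / 4) (N ^ 4) ξ.2 := by ring
        _ ≤ 24 * N ^ 4 * (K * Real.exp (-(1 / (4 * N ^ 6)) * (ξ.1 - N ^ 6) ^ 2)) *
              comb (1 / (4 * N ^ 4)) (1 / 4) (N ^ 4) ξ.2 := by
            apply mul_le_mul_of_nonneg_right _ hc
            apply mul_le_mul_of_nonneg_left _ (by positivity)
            exact omega_le N ξ.1 ξ.2 hN ω hanti hpos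
        _ = _ := by ring)
  refine ⟨hb.1, hb.2.trans ?_⟩
  have i1 : ∫ x : ℝ, Real.exp (-(1 / (4 * N ^ 6)) * (x - N ^ 6) ^ 2) ≤ 3.55 * N ^ 3 := by
    rw [integral_bump]
    apply sqrt_bd _ _ _ (by norm_num) (by positivity)
    have : π / (1 / (4 * N ^ 6)) = 4 * π * (N ^ 3) ^ 2 := by field_simp
    rw [this]
    have : 0 ≤ (N ^ 3) ^ 2 := by positivity
    nlinarith
  have i2 : ∫ y, comb (1 / (4 * N ^ 4)) (1 / 4) (N ^ 4) y ≤ 3.55 * (2 * (3.55 * N ^ 2)) := by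
    refine (integral_comb_le _ _ _ (by positivity) (inv_pow_le_one N hN 4 (by norm_num))
      (by norm_num)).trans ?_
    have a1 : Real.sqrt (π / (1 / 4)) ≤ 3.55 * 1 := by
      apply sqrt_bd _ _ _ (by norm_num) (by norm_num)
      have : π / (1 / 4) = 4 * π := by ring
      rw [this]; norm_num; linarith
    have a2 : Real.sqrt (π / (1 / (4 * N ^ 4))) ≤ 3.55 * N ^ 2 := by
      apply sqrt_bd _ _ _ (by norm_num) (by positivity)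
      have : π / (1 / (4 * N ^ 4)) = 4 * π * (N ^ 2) ^ 2 := by field_simp
      rw [this]
      have : 0 ≤ (N ^ 2) ^ 2 := by positivity
      nlinarith
    rw [mul_one] at a1
    gcongr
  have h0 : 0 ≤ ∫ y, comb (1 / (4 * N ^ 4)) (1 / 4) (N ^ 4) y :=
    integral_nonneg fun y => comb_nonneg _ _ _ _
  calc 24 * N ^ 4 * K * ((∫ x : ℝ, Real.exp (-(1 / (4 * N ^ 6)) * (x - N ^ 6) ^ 2)) *
        ∫ y, comb (1 / (4 * N ^ 4)) (1 / 4) (N ^ 4) y)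
      ≤ 24 * N ^ 4 * K * ((3.55 * N ^ 3) * (3.55 * (2 * (3.55 * N ^ 2)))) := by gcongr
    _ = 2147.466 * N ^ 9 * K := by ring
    _ ≤ 2500 * N ^ 9 * K := by gcongr; norm_num

end Vale.Agent.P076
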