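import Mathlib
import Vale.Agent.P076.Basic
import Vale.Agent.P076.CombPeak
import Vale.Agent.P076.Boxes
import Vale.Agent.P076.PieceNorm

/-! The single-scale piece: factorisation, peaks on the boxes, decay at later times. -/

namespace Vale.Agent.P076

open MeasureTheory Complex Real

theorem schrodReg_piece (N a t : ℝ) (x : ℝ × ℝ) :
    schrodReg (fun ξ => (piece N ξ : ℂ)) a t x = ((2 * (π : ℂ)) ^ 2)⁻¹ *
      ((∫ ξ : ℝ, osc ((a : ℂ) + I * t) x.1 ξ * (gam1 (N ^ 6) ξ : ℂ)) *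
       (∫ ξ : ℝ, osc ((a : ℂ) + I * t) x.2 ξ * (comb (1 / (2 * N ^ 4)) (1 / 2) (N ^ 4) ξ : ℂ))) := by
  rw [schrodReg_eq]
  congr 1
  rw [← integral_prod_mul]
  congr 1
  ext ξ
  rw [osc2_eq_mul]
  unfold piece
  push_cast
  ring

theorem time_exists (τ : ℝ) (h0 : 0 < τ) (h1 : τ ≤ 1 / 4) :
    ∃ t, τ ≤ t ∧ t ≤ 2 * τ ∧ t / (1 + 4 * t ^ 2) = τ := by
  have hcont : ContinuousOn (fun t : ℝ => t / (1 + 4 * t ^ 2)) (Set.Icc τ (2 * τ)) := by
    apply Continuous.continuousOn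
    apply Continuous.div continuous_id (by fun_prop)
    intro t
    positivity
  have hmem : τ ∈ Set.Icc ((fun t : ℝ => t / (1 + 4 * t ^ 2)) τ) ((fun t : ℝ => t / (1 + 4 * t ^ 2)) (2 * τ)) := by
    constructor
    · simp only
      rw [div_le_iff₀ (by positivity)]
      nlinarith [sq_nonneg τ]
    · simp only
      rw [le_div_iff₀ (by positivity)]
      nlinarith [sq_nonneg τ]
  obtain ⟨t, ht, hft⟩ := intermediate_value_Icc (by linarith) hcont hmem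
  exact ⟨t, ht.1, ht.2, hft⟩

theorem exp_neg_two_ge : (1 : ℝ) / 8 ≤ Real.exp (-2) := by
  rw [Real.exp_neg, one_div, inv_le_inv₀ (by norm_num) (Real.exp_pos _)]
  have h3 : Real.exp 2 = Real.exp 1 ^ 2 := by
    rw [← Real.exp_nat_mul]; norm_num
  rw [h3]
  have h4 := Real.exp_one_lt_d9
  have h5 := Real.exp_pos 1
  nlinarith

theorem peakA (N t τ x₁ : ℝ) (hN : 64 ≤ N) (hτ0 : 0 < τ) (hτR : τ ≤ 1 / (2 * N ^ 6))
    (htτ : t = τ * (1 + 4 * t ^ 2)) (ht1 : τ ≤ t) (htR : t ≤ 1 / N ^ 6)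
    (hx : |x₁ - 2 * N ^ 6 * τ| ≤ 1 / N ^ 3) :
    N ^ 3 / 6 ≤ ‖∫ ξ : ℝ, osc (I * t) x₁ ξ * (gam1 (N ^ 6) ξ : ℂ)‖ := by
  have hN0 : 0 < N := by linarith
  have ht0 : 0 < t := lt_of_lt_of_le hτ0 ht1
  have hpi3 := Real.pi_gt_three
  have ht2up : t ^ 2 ≤ 1 / N ^ 12 := by
    calc t ^ 2 ≤ (1 / N ^ 6) ^ 2 := by gcongr
      _ = 1 / N ^ 12 := by rw [div_pow]; ring
  have hshift : 2 * N ^ 6 * t - 2 * N ^ 6 * τ ≤ 1 / N ^ 3 := by
    have h1 : 2 * N ^ 6 * t - 2 * N ^ 6 * τ = 8 * N ^ 6 * (τ * t ^ 2) := by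
      nth_rewrite 1 [htτ]; ring
    rw [h1]
    have h2 : τ * t ^ 2 ≤ 1 / (2 * N ^ 6) * (1 / N ^ 12) := by gcongr
    calc 8 * N ^ 6 * (τ * t ^ 2) ≤ 8 * N ^ 6 * (1 / (2 * N ^ 6) * (1 / N ^ 12)) := by gcongr
      _ = 4 / N ^ 12 := by field_simp; norm_num
      _ ≤ 1 / N ^ 3 := by
          rw [div_le_div_iff₀ (by positivity) (by positivity)]
          have h9 : (4 : ℝ) ≤ N ^ 9 := by
            calc (4 : ℝ) ≤ N := by linarith
              _ = N ^ 1 := (pow_one N).symm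
              _ ≤ N ^ 9 := pow_le_pow_right₀ (by linarith) (by norm_num)
          have h3 : 0 < N ^ 3 := by positivity
          have e : N ^ 12 = N ^ 9 * N ^ 3 := by ring
          rw [e]
          nlinarith
  have hshift0 : 0 ≤ 2 * N ^ 6 * t - 2 * N ^ 6 * τ := by
    have : 2 * N ^ 6 * τ ≤ 2 * N ^ 6 * t := by gcongr
    linarith
  have habs : |x₁ - 2 * N ^ 6 * t| ≤ 2 / N ^ 3 := by
    rw [abs_le] at hx ⊢
    have e : (2 : ℝ) / N ^ 3 = 1 / N ^ 3 + 1 / N ^ 3 := by ring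
    constructor <;> linarith [hx.1, hx.2]
  have hsq : (x₁ - 2 * N ^ 6 * t) ^ 2 ≤ 4 / N ^ 6 := by
    rw [← sq_abs]
    calc |x₁ - 2 * N ^ 6 * t| ^ 2 ≤ (2 / N ^ 3) ^ 2 := by gcongr
      _ = 4 / N ^ 6 := by rw [div_pow]; ring
  have h := packet_lower (N ^ 6) (by positivity) t x₁ ht0.le htR hsq
  refine le_trans ?_ h
  have h1 : 7 / 5 * N ^ 3 ≤ Real.sqrt (2 * π * N ^ 6 / 3) := by
    apply Real.le_sqrt_of_sq_le
    have e : (7 / 5 * N ^ 3) ^ 2 = 49 / 25 * N ^ 6 := by ring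
    rw [e]
    have : 0 < N ^ 6 := by positivity
    nlinarith
  have h2 := exp_neg_two_ge
  calc N ^ 3 / 6 ≤ (7 / 5 * N ^ 3) * (1 / 8) := by
        have : 0 < N ^ 3 := by positivity
        nlinarith
    _ ≤ _ := by gcongr

set_option maxHeartbeats 1000000 in
theorem peakB (N t x₂ : ℝ) (hN : 64 ≤ N) (q : ℕ) [NeZero q] (hqodd : Odd q) (hqN : (q : ℝ) ≤ N)
    (n₁ n₂ : ℕ) (hc1 : Nat.Coprime q n₁) (ht0 : 0 < t) (htup : t ≤ π / (4 * N ^ 6))
    (ht : N ^ 8 * (t / (1 + 4 * t ^ 2)) = 2 * π * n₁ / q)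
    (hx0 : 0 ≤ x₂) (hx1 : x₂ ≤ 1)
    (hx : |x₂ - 2 * π * n₂ / (q * N ^ 4)| ≤ 1 / (2 * N ^ 6)) :
    N * Real.sqrt N / 8 ≤
      ‖∫ ξ : ℝ, osc (I * t) x₂ ξ * (comb (1 / (2 * N ^ 4)) (1 / 2) (N ^ 4) ξ : ℂ)‖ := by
  have hN0 : 0 < N := by linarith
  have hpi := Real.pi_pos
  have hpi3 := Real.pi_gt_three
  have hpi315 := Real.pi_lt_d2
  have hq0 : (0 : ℝ) < q := by exact_mod_cast Nat.pos_of_ne_zero (NeZero.ne q)
  have hden : 0 < 1 + 4 * t ^ 2 := by positivity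
  have hden1 : 1 ≤ 1 + 4 * t ^ 2 := by nlinarith [sq_nonneg t]
  have ht2 : t ^ 2 ≤ 5 / (8 * N ^ 12) := by
    calc t ^ 2 ≤ (π / (4 * N ^ 6)) ^ 2 := by gcongr
      _ = π ^ 2 / (16 * N ^ 12) := by rw [div_pow]; ring
      _ ≤ 5 / (8 * N ^ 12) := by
          rw [div_le_div_iff₀ (by positivity) (by positivity)]
          have h12 : 0 < N ^ 12 := by positivity
          have hp2 : π ^ 2 ≤ 10 := by nlinarith
          nlinarith
  set α : ℝ := 1 / (2 * N ^ 4) + 2 * (N ^ 4) ^ 2 * t ^ 2 / (1 + 4 * t ^ 2) with hα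
  have hαlo : 1 / (2 * N ^ 4) ≤ α := by
    rw [hα]
    have : 0 ≤ 2 * (N ^ 4) ^ 2 * t ^ 2 / (1 + 4 * t ^ 2) := by positivity
    linarith
  have hα0 : 0 < α := lt_of_lt_of_le (by positivity) hαlo
  have hαup : α ≤ 2 / N ^ 4 := by
    rw [hα]
    have h1 : 2 * (N ^ 4) ^ 2 * t ^ 2 / (1 + 4 * t ^ 2) ≤ 2 * (N ^ 4) ^ 2 * t ^ 2 :=
      div_le_self (by positivity) hden1
    have h2 : 2 * (N ^ 4) ^ 2 * t ^ 2 ≤ 2 * (N ^ 4) ^ 2 * (5 / (8 * N ^ 12)) := by gcongr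
    have h3 : 2 * (N ^ 4) ^ 2 * (5 / (8 * N ^ 12)) = 5 / 4 * (1 / N ^ 4) := by field_simp; norm_num
    have h4 : 1 / (2 * N ^ 4) = 1 / 2 * (1 / N ^ 4) := by field_simp
    have h5 : 2 / N ^ 4 = 2 * (1 / N ^ 4) := by ring
    have h6 : 0 < 1 / N ^ 4 := by positivity
    rw [h4, h5]
    linarith
  have hcop : IsCoprime ((n₁ : ℤ)) ((q : ℕ) : ℤ) := by
    rw [Nat.isCoprime_iff_coprime]
    exact hc1.symm
  set δ : ℝ := 2 * π * ((n₂ : ℤ) : ℝ) / q - N ^ 4 * x₂ / (1 + 4 * t ^ 2) with hδ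
  have hδabs : |δ| ≤ 1 / N ^ 2 := by
    have e : δ = N ^ 4 * (2 * π * n₂ / (q * N ^ 4) - x₂) + N ^ 4 * x₂ * (4 * t ^ 2 / (1 + 4 * t ^ 2)) := by
      rw [hδ]
      simp only [Int.cast_natCast]
      field_simp
      ring
    rw [e]
    have h1 : |N ^ 4 * (2 * π * n₂ / (q * N ^ 4) - x₂)| ≤ 1 / (2 * N ^ 2) := by
      rw [abs_mul, abs_of_pos (by positivity : 0 < N ^ 4), abs_sub_comm]
      calc N ^ 4 * |x₂ - 2 * π * n₂ / (q * N ^ 4)| ≤ N ^ 4 * (1 / (2 * N ^ 6)) := by gcongr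
        _ = 1 / (2 * N ^ 2) := by field_simp
    have h2 : |N ^ 4 * x₂ * (4 * t ^ 2 / (1 + 4 * t ^ 2))| ≤ 1 / (2 * N ^ 2) := by
      rw [abs_of_nonneg (by positivity)]
      have h3 : 4 * t ^ 2 / (1 + 4 * t ^ 2) ≤ 4 * t ^ 2 := div_le_self (by positivity) hden1
      calc N ^ 4 * x₂ * (4 * t ^ 2 / (1 + 4 * t ^ 2)) ≤ N ^ 4 * 1 * (4 * (5 / (8 * N ^ 12))) := by
            gcongr
            exact h3.trans (by gcongr)
        _ = 5 / (2 * N ^ 8) := by field_simp; norm_num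
        _ ≤ 1 / (2 * N ^ 2) := by
            rw [div_le_div_iff₀ (by positivity) (by positivity)]
            have h6 : (5 : ℝ) ≤ N ^ 6 := by
              calc (5 : ℝ) ≤ N := by linarith
                _ = N ^ 1 := (pow_one N).symm
                _ ≤ N ^ 6 := pow_le_pow_right₀ (by linarith) (by norm_num)
            have e8 : N ^ 8 = N ^ 6 * N ^ 2 := by ring
            have : 0 < N ^ 2 := by positivity
            rw [e8]
            nlinarith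
    calc _ ≤ |N ^ 4 * (2 * π * n₂ / (q * N ^ 4) - x₂)| + |N ^ 4 * x₂ * (4 * t ^ 2 / (1 + 4 * t ^ 2))| :=
          abs_add_le _ _
      _ ≤ 1 / (2 * N ^ 2) + 1 / (2 * N ^ 2) := add_le_add h1 h2
      _ = 1 / N ^ 2 := by field_simp; norm_num
  have h := comb_peak (1 / (2 * N ^ 4)) (N ^ 4) t x₂ (by positivity) q hqodd (n₁ : ℤ) (n₂ : ℤ) hcop
    (by
      simp only [Int.cast_natCast]
      rw [← ht]; ring)
    (by
      rw [← hα, le_div_iff₀ (by positivity)]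
      have h1 : 4 * α * (q : ℝ) ^ 2 ≤ 4 * (2 / N ^ 4) * N ^ 2 := by gcongr
      have h2 : 4 * (2 / N ^ 4) * N ^ 2 = 8 / N ^ 2 := by field_simp; norm_num
      have h3 : 8 / N ^ 2 ≤ 1 := by
        rw [div_le_one (by positivity)]
        nlinarith
      nlinarith)
    (by
      rw [← hδ]
      refine hδabs.trans ?_
      rw [div_le_div_iff₀ (by positivity) hq0]
      nlinarith)
    (by
      rw [← hδ, ← hα, ← sq_abs]
      calc |δ| ^ 2 ≤ (1 / N ^ 2) ^ 2 := by gcongr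
        _ = 2 * (1 / (2 * N ^ 4)) := by field_simp
        _ ≤ 2 * α := by gcongr)
  rw [← hα] at h
  refine le_trans ?_ h
  have ht2' : t ^ 2 ≤ 5 / 8 := by
    refine ht2.trans ?_
    rw [div_le_div_iff₀ (by positivity) (by norm_num)]
    have : (1 : ℝ) ≤ N ^ 12 := one_le_pow₀ (by linarith)
    nlinarith
  have g1 : 1 ≤ Real.sqrt (2 * π / Real.sqrt (1 + 4 * t ^ 2)) := by
    rw [Real.one_le_sqrt]
    have h1 : Real.sqrt (1 + 4 * t ^ 2) ≤ 2 := by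
      rw [Real.sqrt_le_iff]
      constructor
      · norm_num
      · nlinarith
    have h2 : 0 < Real.sqrt (1 + 4 * t ^ 2) := Real.sqrt_pos.2 hden
    rw [le_div_iff₀ h2]
    linarith
  have g2 : 1 / 2 ≤ Real.exp (-x₂ ^ 2 / (2 * (1 + 4 * t ^ 2))) := by
    have h1 : -(1 / 2 : ℝ) ≤ -x₂ ^ 2 / (2 * (1 + 4 * t ^ 2)) := by
      rw [le_div_iff₀ (by positivity)]
      nlinarith
    have h2 := Real.add_one_le_exp (-(1 / 2) : ℝ)
    have h3 := Real.exp_le_exp.2 h1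
    linarith
  have g3 : N * Real.sqrt N ≤ Real.sqrt (π / (α * q)) := by
    apply Real.le_sqrt_of_sq_le
    rw [mul_pow, Real.sq_sqrt hN0.le, le_div_iff₀ (by positivity)]
    have h1 : α * q ≤ 2 / N ^ 4 * N := by gcongr
    have h2 : N ^ 2 * N * (2 / N ^ 4 * N) = 2 := by field_simp
    have h3 : N ^ 2 * N * (α * q) ≤ N ^ 2 * N * (2 / N ^ 4 * N) := by gcongr
    linarith
  have hs : 0 ≤ N * Real.sqrt N := by positivity
  calc N * Real.sqrt N / 8 = 1 * (1 / 2) * (1 / 4 * (N * Real.sqrt N)) := by ring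
    _ ≤ _ := by gcongr

set_option maxHeartbeats 1000000 in
theorem piece_peak (K : ℕ) (hK : 16 ≤ K) (i : ℕ × ℕ × ℕ) (hi : i ∈ boxIdx K) (x : ℝ × ℝ)
    (hx : x ∈ box K i) :
    ∃ t : ℝ, 1 / (4 * K : ℝ) ^ 9 ≤ t ∧ t ≤ 1 / (4 * K : ℝ) ^ 6 ∧
      (4 * K : ℝ) ^ 4 * Real.sqrt (4 * K) / 1920 ≤
        ‖schrodReg (fun ξ => (piece (4 * K) ξ : ℂ)) 0 t x‖ := by
  obtain ⟨q, n₁, n₂⟩ := i
  obtain ⟨hq3, hqN, hqodd, hn1, hc1, hn2, hc2⟩ := (mem_boxIdx K (q, n₁, n₂)).1 hi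
  simp only at hq3 hqN hqodd hn1 hc1 hn2 hc2
  have hxsq := boxes_subset K hK (Set.mem_biUnion hi hx)
  obtain ⟨⟨hx1lo, hx1hi⟩, ⟨hx2lo, hx2hi⟩⟩ := hx
  simp only at hx1lo hx1hi hx2lo hx2hi
  obtain ⟨-, ⟨hx20, hx21⟩⟩ := hxsq
  set N : ℝ := 4 * K with hNdef
  have hN : (64 : ℝ) ≤ N := by
    rw [hNdef]
    have : (16 : ℝ) ≤ K := by exact_mod_cast hK
    linarith
  have hN0 : 0 < N := by linarith
  have hpi := Real.pi_pos
  have hpi3 := Real.pi_gt_three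
  have hpi4 := Real.pi_lt_four
  have : NeZero q := ⟨by omega⟩
  have hq0 : (0 : ℝ) < q := by
    have : 0 < q := by omega
    exact_mod_cast this
  have hqN' : (q : ℝ) ≤ N := by
    rw [hNdef]; exact_mod_cast hqN
  have hn1pos : (1 : ℝ) ≤ n₁ := by
    have : n₁ ≠ 0 := by
      rintro rfl
      rw [Nat.coprime_zero_right] at hc1
      omega
    have : 1 ≤ n₁ := Nat.one_le_iff_ne_zero.2 this
    exact_mod_cast this
  have hn1up : (n₁ : ℝ) ≤ q * (N ^ 2 / 16) := by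
    have h : (n₁ : ℝ) ≤ (q : ℝ) * (K : ℝ) ^ 2 := by exact_mod_cast hn1.le
    have h2 : (K : ℝ) ^ 2 = N ^ 2 / 16 := by rw [hNdef]; ring
    rwa [h2] at h
  -- the time
  set τ : ℝ := 2 * π * n₁ / (q * N ^ 8) with hτ
  have hτ0 : 0 < τ := by positivity
  have hτup : τ ≤ π / (8 * N ^ 6) := by
    rw [hτ, div_le_div_iff₀ (by positivity) (by positivity)]
    have : 2 * π * n₁ * (8 * N ^ 6) ≤ 2 * π * (q * (N ^ 2 / 16)) * (8 * N ^ 6) := by gcongr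
    calc 2 * π * n₁ * (8 * N ^ 6) ≤ 2 * π * (q * (N ^ 2 / 16)) * (8 * N ^ 6) := this
      _ = π * (q * N ^ 8) := by ring
  have hτlo : 2 * π / N ^ 9 ≤ τ := by
    rw [hτ, div_le_div_iff₀ (by positivity) (by positivity)]
    have h1 : 2 * π * (q * N ^ 8) ≤ 2 * π * (N * N ^ 8) := by gcongr
    have h2 : 2 * π * (N * N ^ 8) * 1 ≤ 2 * π * (N * N ^ 8) * n₁ := by gcongr
    nlinarith
  have hN6 : (64 : ℝ) ≤ N ^ 6 := by
    calc (64 : ℝ) ≤ N := hN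
      _ = N ^ 1 := (pow_one N).symm
      _ ≤ N ^ 6 := pow_le_pow_right₀ (by linarith) (by norm_num)
  have hτ14 : τ ≤ 1 / 4 := by
    refine hτup.trans ?_
    rw [div_le_div_iff₀ (by positivity) (by norm_num)]
    nlinarith
  obtain ⟨t, ht1, ht2, ht3⟩ := time_exists τ hτ0 hτ14
  have ht0 : 0 < t := lt_of_lt_of_le hτ0 ht1
  have htup : t ≤ π / (4 * N ^ 6) := by
    calc t ≤ 2 * τ := ht2
      _ ≤ 2 * (π / (8 * N ^ 6)) := by gcongr
      _ = π / (4 * N ^ 6) := by field_simp; norm_num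
  have htR : t ≤ 1 / N ^ 6 := by
    refine htup.trans ?_
    rw [div_le_div_iff₀ (by positivity) (by positivity)]
    nlinarith
  refine ⟨t, ?_, htR, ?_⟩
  · refine le_trans ?_ (hτlo.trans ht1)
    gcongr
    linarith
  have htτ : t = τ * (1 + 4 * t ^ 2) := by
    have : 0 < 1 + 4 * t ^ 2 := by positivity
    field_simp at ht3
    linarith
  have hτR : τ ≤ 1 / (2 * N ^ 6) := by
    refine hτup.trans ?_
    rw [div_le_div_iff₀ (by positivity) (by positivity)]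
    nlinarith
  rw [schrodReg_piece]
  simp only [Complex.ofReal_zero, zero_add]
  rw [norm_mul, norm_mul, norm_const_inv]
  have hcen : 2 * N ^ 6 * τ = 4 * π * n₁ / (q * N ^ 2) := by
    rw [hτ]; field_simp; ring
  have hA := peakA N t τ x.1 hN hτ0 hτR htτ ht1 htR (by
    rw [hcen, abs_le]
    constructor <;> linarith)
  have hB := peakB N t x.2 hN q hqodd hqN' n₁ n₂ hc1 ht0 htup (by
    rw [ht3, hτ]; field_simp) hx20 hx21 (by
    rw [abs_le]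
    constructor <;> linarith)
  have hC : (1 : ℝ) / 40 ≤ ((2 * π) ^ 2)⁻¹ := by
    rw [one_div, inv_le_inv₀ (by norm_num) (by positivity)]
    have := Real.pi_lt_d2
    nlinarith
  have hs : 0 ≤ Real.sqrt N := Real.sqrt_nonneg _
  calc N ^ 4 * Real.sqrt N / 1920 = (1 / 40) * ((N ^ 3 / 6) * (N * Real.sqrt N / 8)) := by ring
    _ ≤ _ := by gcongr

theorem piece_tail (N : ℝ) (hN : 2 ≤ N) (a t t₀ : ℝ) (ha : 0 ≤ a) (ht₀ : 0 < t₀) (ht : t₀ ≤ t)
    (x : ℝ × ℝ) (hx : x ∈ (Set.Icc 0 1 ×ˢ Set.Icc 0 1 : Set (ℝ × ℝ))) :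
    ‖schrodReg (fun ξ => (piece N ξ : ℂ)) a t x‖ ≤
      Real.sqrt (π / t₀) * Real.exp (1 / t₀ - N ^ 6 / 2) * N ^ 2 := by
  have hN0 : 0 < N := by linarith
  have hpi := Real.pi_pos
  rw [schrodReg_piece, norm_mul, norm_mul, norm_const_inv]
  have hx1 : |x.1| ≤ 1 := by
    rw [abs_le]
    constructor <;> linarith [hx.1.1, hx.1.2]
  have hA := packet_upper (N ^ 6) (by positivity) a t t₀ x.1 ha ht₀ ht hx1
  obtain ⟨hci, hcv⟩ := comb_integrable (1 / (2 * N ^ 4)) (1 / 2) (N ^ 4) (by positivity) (by norm_num)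
  have hB : ‖∫ ξ : ℝ, osc ((a : ℂ) + I * t) x.2 ξ * (comb (1 / (2 * N ^ 4)) (1 / 2) (N ^ 4) ξ : ℂ)‖ ≤
      4 * π * N ^ 2 := by
    calc _ ≤ ∫ ξ : ℝ, ‖osc ((a : ℂ) + I * t) x.2 ξ * (comb (1 / (2 * N ^ 4)) (1 / 2) (N ^ 4) ξ : ℂ)‖ :=
          norm_integral_le_integral_norm _
      _ ≤ ∫ ξ : ℝ, comb (1 / (2 * N ^ 4)) (1 / 2) (N ^ 4) ξ := by
          apply integral_mono_of_nonneg (Filter.Eventually.of_forall fun ξ => norm_nonneg _) hci
          refine Filter.Eventually.of_forall fun ξ => ?_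
          simp only [norm_mul, Complex.norm_real]
          rw [Real.norm_of_nonneg (comb_nonneg _ _ _ _)]
          calc _ ≤ 1 * comb (1 / (2 * N ^ 4)) (1 / 2) (N ^ 4) ξ := by
                gcongr
                · exact comb_nonneg _ _ _ _
                · exact norm_osc_le_one _ (by simpa using ha) _ _
            _ = _ := one_mul _
      _ ≤ 4 * π * N ^ 2 := by
          rw [hcv]
          have h1 := tsum_gauss_int_le (1 / (2 * N ^ 4)) (by positivity) (by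
            rw [div_le_one (by positivity)]
            have : (1 : ℝ) ≤ N ^ 4 := one_le_pow₀ (by linarith)
            linarith)
          have h2 : Real.sqrt (π / (1 / (2 * N ^ 4))) = Real.sqrt (2 * π) * N ^ 2 := by
            have : π / (1 / (2 * N ^ 4)) = (2 * π) * (N ^ 2) ^ 2 := by field_simp
            rw [this, Real.sqrt_mul (by positivity), Real.sqrt_sq (by positivity)]
          have h3 : Real.sqrt (π / (1 / 2)) = Real.sqrt (2 * π) := by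
            congr 1; field_simp
          rw [h2] at h1
          rw [h3]
          have h4 : Real.sqrt (2 * π) * Real.sqrt (2 * π) = 2 * π := Real.mul_self_sqrt (by positivity)
          calc Real.sqrt (2 * π) * ∑' ℓ : ℤ, Real.exp (-(1 / (2 * N ^ 4)) * (ℓ : ℝ) ^ 2)
              ≤ Real.sqrt (2 * π) * (2 * (Real.sqrt (2 * π) * N ^ 2)) := by gcongr
            _ = 2 * (Real.sqrt (2 * π) * Real.sqrt (2 * π)) * N ^ 2 := by ring
            _ = 4 * π * N ^ 2 := by rw [h4]; ring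
  have hC : ((2 * π) ^ 2)⁻¹ * (4 * π) ≤ 1 := by
    have : ((2 * π) ^ 2)⁻¹ * (4 * π) = 1 / π := by field_simp; norm_num
    rw [this, div_le_one hpi]
    linarith [Real.pi_gt_three]
  calc ((2 * π) ^ 2)⁻¹ * (_ * _) ≤ ((2 * π) ^ 2)⁻¹ *
        ((Real.sqrt (π / t₀) * Real.exp (1 / t₀ - N ^ 6 / 2)) * (4 * π * N ^ 2)) := by gcongr
    _ = (((2 * π) ^ 2)⁻¹ * (4 * π)) * (Real.sqrt (π / t₀) * Real.exp (1 / t₀ - N ^ 6 / 2) * N ^ 2) := by ring
    _ ≤ 1 * (Real.sqrt (π / t₀) * Real.exp (1 / t₀ - N ^ 6 / 2) * N ^ 2) := by gcongr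
    _ = _ := one_mul _

end Vale.Agent.P076
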