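import Mathlib
import Vale.Agent.P076.PiecePeak

/-! Choice of the scale at each step of the construction. -/

namespace Vale.Agent.P076

open MeasureTheory Filter Topology Real

/-- the coefficient of the piece at scale `4 K` making its peaks of height `M` -/
noncomputable def coef (M : ℝ) (K : ℕ) : ℝ := 1920 * M / ((4 * K : ℝ) ^ 4 * Real.sqrt (4 * K))

theorem coef_sq (M : ℝ) (K : ℕ) (hK : 0 < K) :
    coef M K ^ 2 = 1920 ^ 2 * M ^ 2 / (4 * K : ℝ) ^ 9 := by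
  have hK' : (0 : ℝ) < K := by exact_mod_cast hK
  unfold coef
  rw [div_pow, mul_pow, mul_pow, Real.sq_sqrt (by positivity)]
  congr 1
  ring

theorem tendsto_scale : Tendsto (fun K : ℕ => (4 * K : ℝ)) atTop atTop :=
  tendsto_natCast_atTop_atTop.const_mul_atTop (by norm_num)

theorem exists_scale (ω : ℝ → ℝ) (hpos : ∀ r, 0 < ω r) (hlim : Tendsto ω atTop (𝓝 0))
    (k : ℕ) (M T : ℝ) (Kp : ℕ) :
    ∃ K : ℕ, 16 ≤ K ∧ Kp < K ∧ (k : ℝ) + 1 ≤ (4 * K : ℝ) ∧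
      (2 : ℝ) ^ (k + 1) * (coef M K ^ 2 * (100 * (4 * K : ℝ) ^ 5)) ≤ (1 / 2) ^ k ∧
      (2 : ℝ) ^ (k + 1) * (coef M K ^ 2 * (2500 * (4 * K : ℝ) ^ 9 *
        (ω ((4 * K : ℝ) ^ 6 / 2) + ω 0 * Real.exp (-(4 * K : ℝ) ^ 6 / 16)))) ≤ (1 / 2) ^ k ∧
      |coef M K| * (|T| * Real.exp (-(4 * K : ℝ) ^ 6 / 2) * (4 * K : ℝ) ^ 2) ≤ (1 / 2) ^ k := by
  have hpow6 : Tendsto (fun K : ℕ => (4 * K : ℝ) ^ 6) atTop atTop :=
    (tendsto_pow_atTop (by norm_num : (6 : ℕ) ≠ 0)).comp tendsto_scale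
  have hε : (0 : ℝ) < (1 / 2) ^ k := by positivity
  -- (b)
  set Cb : ℝ := (2 : ℝ) ^ (k + 1) * (1920 ^ 2 * M ^ 2 * 100) with hCb
  have hCb0 : 0 ≤ Cb := by positivity
  have e1 : ∀ᶠ K : ℕ in atTop, Cb * 2 ^ k ≤ (4 * K : ℝ) := tendsto_scale.eventually_ge_atTop _
  -- (c)
  set Cc : ℝ := (2 : ℝ) ^ (k + 1) * (1920 ^ 2 * M ^ 2 * 2500) with hCc
  have hCc0 : 0 ≤ Cc := by positivity
  set ε : ℝ := (1 / 2) ^ k / (2 * (Cc + 1)) with hεdef
  have hε0 : 0 < ε := by positivity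
  have e2 : ∀ᶠ K : ℕ in atTop, ω ((4 * K : ℝ) ^ 6 / 2) ≤ ε := by
    have h1 : Tendsto (fun K : ℕ => (4 * K : ℝ) ^ 6 / 2) atTop atTop :=
      hpow6.atTop_div_const (by norm_num)
    exact (hlim.comp h1).eventually_le_const hε0
  have e3 : ∀ᶠ K : ℕ in atTop, ω 0 * Real.exp (-(4 * K : ℝ) ^ 6 / 16) ≤ ε := by
    have h1 : Tendsto (fun K : ℕ => (4 * K : ℝ) ^ 6 / 16) atTop atTop :=
      hpow6.atTop_div_const (by norm_num)
    have h2 : Tendsto (fun K : ℕ => ω 0 * Real.exp (-((4 * K : ℝ) ^ 6 / 16))) atTop (𝓝 (ω 0 * 0)) :=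
      (Real.tendsto_exp_neg_atTop_nhds_zero.comp h1).const_mul _
    rw [mul_zero] at h2
    have h3 := h2.eventually_le_const hε0
    filter_upwards [h3] with K hK
    rwa [neg_div]
  -- (d)
  set εd : ℝ := (1 / 2) ^ k / (1920 * |M| * |T| + 1) with hεd
  have hεd0 : 0 < εd := by positivity
  have e4 : ∀ᶠ K : ℕ in atTop, Real.exp (-(4 * K : ℝ) ^ 6 / 2) ≤ εd := by
    have h1 : Tendsto (fun K : ℕ => (4 * K : ℝ) ^ 6 / 2) atTop atTop :=
      hpow6.atTop_div_const (by norm_num)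
    have h3 := (Real.tendsto_exp_neg_atTop_nhds_zero.comp h1).eventually_le_const hεd0
    filter_upwards [h3] with K hK
    rw [neg_div]
    exact hK
  have e5 : ∀ᶠ K : ℕ in atTop, (k : ℝ) + 1 ≤ (4 * K : ℝ) := tendsto_scale.eventually_ge_atTop _
  have e6 : ∀ᶠ K : ℕ in atTop, 16 ≤ K := eventually_ge_atTop 16
  have e7 : ∀ᶠ K : ℕ in atTop, Kp < K := eventually_gt_atTop Kp
  obtain ⟨K, h1, h2, h3, h4, h5, h6, h7⟩ :=
    (e1.and (e2.and (e3.and (e4.and (e5.and (e6.and e7)))))).exists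
  have hKpos : 0 < K := by omega
  set N : ℝ := (4 * K : ℝ) with hN
  have hN64 : (64 : ℝ) ≤ N := by
    have : (16 : ℝ) ≤ K := by exact_mod_cast h6
    rw [hN]; linarith
  have hN0 : 0 < N := by linarith
  have hcs : coef M K ^ 2 = 1920 ^ 2 * M ^ 2 / N ^ 9 := coef_sq M K hKpos
  refine ⟨K, h6, h7, h5, ?_, ?_, ?_⟩
  · rw [hcs]
    have e : (2 : ℝ) ^ (k + 1) * (1920 ^ 2 * M ^ 2 / N ^ 9 * (100 * N ^ 5)) = Cb / N ^ 4 := by
      rw [hCb]; field_simp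
    rw [e, div_le_iff₀ (by positivity)]
    have h8 : N ≤ N ^ 4 := by
      calc N = N ^ 1 := (pow_one N).symm
        _ ≤ N ^ 4 := pow_le_pow_right₀ (by linarith) (by norm_num)
    have h9 : (1 / 2 : ℝ) ^ k * 2 ^ k = 1 := by
      rw [← mul_pow]; norm_num
    have h10 : Cb * 2 ^ k ≤ N ^ 4 := h1.trans h8
    calc Cb = (1 / 2 : ℝ) ^ k * (Cb * 2 ^ k) := by
          rw [mul_comm Cb, ← mul_assoc, h9, one_mul]
      _ ≤ (1 / 2 : ℝ) ^ k * N ^ 4 := by gcongr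
  · rw [hcs]
    have e : (2 : ℝ) ^ (k + 1) * (1920 ^ 2 * M ^ 2 / N ^ 9 * (2500 * N ^ 9 *
        (ω (N ^ 6 / 2) + ω 0 * Real.exp (-N ^ 6 / 16)))) =
        Cc * (ω (N ^ 6 / 2) + ω 0 * Real.exp (-N ^ 6 / 16)) := by
      rw [hCc]; field_simp
    rw [e]
    calc Cc * (ω (N ^ 6 / 2) + ω 0 * Real.exp (-N ^ 6 / 16)) ≤ Cc * (ε + ε) := by gcongr
      _ = (1 / 2) ^ k * (Cc / (Cc + 1)) := by rw [hεdef]; field_simp; ring
      _ ≤ (1 / 2) ^ k * 1 := by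
          gcongr
          rw [div_le_one (by positivity)]
          linarith
      _ = (1 / 2) ^ k := mul_one _
  · have hs1 : 1 ≤ Real.sqrt N := by
      rw [Real.one_le_sqrt]; linarith
    have hc : |coef M K| * N ^ 2 ≤ 1920 * |M| := by
      unfold coef
      rw [abs_div, abs_mul, abs_of_pos (by positivity : (0 : ℝ) < (4 * K : ℝ) ^ 4 * Real.sqrt (4 * K)),
        abs_of_pos (by norm_num : (0 : ℝ) < 1920), ← hN, div_mul_eq_mul_div,
        div_le_iff₀ (by positivity)]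
      have h8 : N ^ 2 ≤ N ^ 4 * Real.sqrt N := by
        have : N ^ 2 ≤ N ^ 4 := pow_le_pow_right₀ (by linarith) (by norm_num)
        have h4 : 0 < N ^ 4 := by positivity
        nlinarith
      have : 0 ≤ 1920 * |M| := by positivity
      gcongr
    calc |coef M K| * (|T| * Real.exp (-N ^ 6 / 2) * N ^ 2)
        = (|coef M K| * N ^ 2) * |T| * Real.exp (-N ^ 6 / 2) := by ring
      _ ≤ (1920 * |M|) * |T| * εd := by gcongr
      _ = (1 / 2) ^ k * ((1920 * |M| * |T|) / (1920 * |M| * |T| + 1)) := by rw [hεd]; field_simp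
      _ ≤ (1 / 2) ^ k * 1 := by
          gcongr
          rw [div_le_one (by positivity)]
          linarith
      _ = (1 / 2) ^ k := mul_one _

end Vale.Agent.P076
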