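import Mathlib
import Vale.Agent.P076.Scale

/-! Recursive choice of the scales and heights. -/

namespace Vale.Agent.P076

open MeasureTheory Filter Topology Real

/-- the contribution of one normalised piece to the trivial bound -/
noncomputable def contrib (M : ℝ) (K : ℕ) : ℝ :=
  ((2 * π) ^ 2)⁻¹ * ∫ ξ : ℝ × ℝ, coef M K * piece (4 * K) ξ

/-- the constant in the decay bound after time `(4 Kp)^(-9)` -/
noncomputable def tailConst (Kp : ℕ) : ℝ :=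
  Real.sqrt (π / (1 / (4 * Kp : ℝ) ^ 9)) * Real.exp (1 / (1 / (4 * Kp : ℝ) ^ 9))

theorem exists_seq (ω : ℝ → ℝ) (hpos : ∀ r, 0 < ω r) (hlim : Tendsto ω atTop (𝓝 0)) :
    ∃ (Kk : ℕ → ℕ) (Mk : ℕ → ℝ),
      (∀ k : ℕ, 16 ≤ Kk k) ∧ (∀ k : ℕ, Kk k < Kk (k + 1)) ∧ (∀ k : ℕ, (k : ℝ) + 1 ≤ (4 * Kk k : ℝ)) ∧
      (∀ k : ℕ, (2 : ℝ) ^ (k + 1) * (coef (Mk k) (Kk k) ^ 2 * (100 * (4 * Kk k : ℝ) ^ 5)) ≤ (1 / 2) ^ k) ∧
      (∀ k : ℕ, (2 : ℝ) ^ (k + 1) * (coef (Mk k) (Kk k) ^ 2 * (2500 * (4 * Kk k : ℝ) ^ 9 *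
        (ω ((4 * Kk k : ℝ) ^ 6 / 2) + ω 0 * Real.exp (-(4 * Kk k : ℝ) ^ 6 / 16)))) ≤ (1 / 2) ^ k) ∧
      (∀ k : ℕ, |coef (Mk (k + 1)) (Kk (k + 1))| * (|tailConst (Kk k)| *
        Real.exp (-(4 * Kk (k + 1) : ℝ) ^ 6 / 2) * (4 * Kk (k + 1) : ℝ) ^ 2) ≤ (1 / 2) ^ (k + 1)) ∧
      (∀ k : ℕ, Mk k = (k : ℝ) + 1 + ∑ j ∈ Finset.range k, contrib (Mk j) (Kk j)) := by
  choose f hf using (fun (k : ℕ) (M T : ℝ) (Kp : ℕ) => exists_scale ω hpos hlim k M T Kp)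
  let st : ℕ → ℕ × ℝ × ℝ := fun n => Nat.rec
    ((f 0 1 0 0, 1, contrib 1 (f 0 1 0 0)) : ℕ × ℝ × ℝ)
    (fun k s => (f (k + 1) ((k : ℝ) + 1 + 1 + s.2.2) (tailConst s.1) s.1, (k : ℝ) + 1 + 1 + s.2.2,
      s.2.2 + contrib ((k : ℝ) + 1 + 1 + s.2.2)
        (f (k + 1) ((k : ℝ) + 1 + 1 + s.2.2) (tailConst s.1) s.1))) n
  have hK0 : (st 0).1 = f 0 (st 0).2.1 0 0 := rfl
  have hM0 : (st 0).2.1 = 1 := rfl
  have hS0 : (st 0).2.2 = contrib (st 0).2.1 (st 0).1 := rfl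
  have hKs : ∀ k, (st (k + 1)).1 = f (k + 1) (st (k + 1)).2.1 (tailConst (st k).1) (st k).1 :=
    fun k => rfl
  have hMs : ∀ k, (st (k + 1)).2.1 = (k : ℝ) + 1 + 1 + (st k).2.2 := fun k => rfl
  have hSs : ∀ k, (st (k + 1)).2.2 = (st k).2.2 + contrib (st (k + 1)).2.1 (st (k + 1)).1 :=
    fun k => rfl
  have hspec : ∀ k, ∃ T Kp, (st k).1 = f k (st k).2.1 T Kp := by
    intro k
    cases k with
    | zero => exact ⟨0, 0, hK0⟩
    | succ k => exact ⟨_, _, hKs k⟩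
  have hS : ∀ k, (st k).2.2 = ∑ j ∈ Finset.range (k + 1), contrib (st j).2.1 (st j).1 := by
    intro k
    induction k with
    | zero => simp [hS0]
    | succ k ih => rw [hSs, ih, Finset.sum_range_succ _ (k + 1)]
  refine ⟨fun k => (st k).1, fun k => (st k).2.1, ?_, ?_, ?_, ?_, ?_, ?_, ?_⟩
  · intro k
    obtain ⟨T, Kp, h⟩ := hspec k
    simp only
    rw [h]
    exact (hf k _ T Kp).1
  · intro k
    simp only
    rw [hKs k]
    exact (hf (k + 1) _ _ _).2.1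
  · intro k
    obtain ⟨T, Kp, h⟩ := hspec k
    simp only
    rw [h]
    exact (hf k _ T Kp).2.2.1
  · intro k
    obtain ⟨T, Kp, h⟩ := hspec k
    simp only
    rw [h]
    exact (hf k _ T Kp).2.2.2.1
  · intro k
    obtain ⟨T, Kp, h⟩ := hspec k
    simp only
    rw [h]
    exact (hf k _ T Kp).2.2.2.2.1
  · intro k
    simp only
    rw [hKs k]
    exact (hf (k + 1) _ _ _).2.2.2.2.2
  · intro k
    simp only
    cases k with
    | zero => simp [hM0]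
    | succ k =>
      rw [hMs, hS]
      push_cast
      ring

end Vale.Agent.P076
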