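import Mathlib
import Vale.Agent.P076.TsumInt

namespace Vale.Agent.P076

open MeasureTheory

theorem sq_sum_range_le (n : ℕ) : ∀ v : ℕ → ℝ,
    (∑ k ∈ Finset.range n, v k) ^ 2 ≤ ∑ k ∈ Finset.range n, (2 : ℝ) ^ (k + 1) * v k ^ 2 := by
  induction n with
  | zero => intro v; simp
  | succ n ih =>
    intro v
    rw [Finset.sum_range_succ', Finset.sum_range_succ']
    have h1 := ih (fun k => v (k + 1))
    have h2 : ∑ k ∈ Finset.range n, (2 : ℝ) ^ (k + 1 + 1) * v (k + 1) ^ 2 =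
        2 * ∑ k ∈ Finset.range n, (2 : ℝ) ^ (k + 1) * v (k + 1) ^ 2 := by
      rw [Finset.mul_sum]
      apply Finset.sum_congr rfl
      intro k _
      ring
    rw [h2]
    set T := ∑ k ∈ Finset.range n, v (k + 1)
    set U := ∑ k ∈ Finset.range n, (2 : ℝ) ^ (k + 1) * v (k + 1) ^ 2
    have h3 : (2 : ℝ) ^ (0 + 1) = 2 := by norm_num
    rw [h3]
    nlinarith [sq_nonneg (T - v 0)]

theorem sq_tsum_le (v : ℕ → ℝ) (_hv : ∀ k, 0 ≤ v k)
    (hs : Summable (fun k => (2 : ℝ) ^ (k + 1) * v k ^ 2)) :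
    (∑' k, v k) ^ 2 ≤ ∑' k, (2 : ℝ) ^ (k + 1) * v k ^ 2 := by
  have hnn : ∀ k, 0 ≤ (2 : ℝ) ^ (k + 1) * v k ^ 2 := fun k => by positivity
  by_cases hsv : Summable v
  · have h1 : Filter.Tendsto (fun n => (∑ k ∈ Finset.range n, v k) ^ 2) Filter.atTop
        (nhds ((∑' k, v k) ^ 2)) := (hsv.hasSum.tendsto_sum_nat).pow 2
    refine le_of_tendsto' h1 (fun n => ?_)
    exact (sq_sum_range_le n v).trans (hs.sum_le_tsum _ (fun k _ => hnn k))
  · rw [tsum_eq_zero_of_not_summable hsv]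
    simpa using tsum_nonneg hnn

theorem ae_summable_of_nonneg {ι : Type*} [Countable ι] {α : Type*} [MeasurableSpace α]
    {μ : Measure α} (f : ι → α → ℝ) (hf : ∀ i, Integrable (f i) μ) (hnn : ∀ i x, 0 ≤ f i x)
    (hsum : Summable (fun i => ∫ x, f i x ∂μ)) :
    ∀ᵐ x ∂μ, Summable (fun i => f i x) := by
  have hmeas : ∀ i, AEMeasurable (fun x => ENNReal.ofReal (f i x)) μ := fun i =>
    (hf i).1.aemeasurable.ennreal_ofReal
  have h2 : ∫⁻ x, ∑' i, ENNReal.ofReal (f i x) ∂μ = ∑' i, ENNReal.ofReal (∫ x, f i x ∂μ) := by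
    rw [lintegral_tsum hmeas]
    congr 1
    ext i
    rw [ofReal_integral_eq_lintegral_ofReal (hf i) (Filter.Eventually.of_forall (hnn i))]
  have h3 : ∑' i, ENNReal.ofReal (∫ x, f i x ∂μ) ≠ ⊤ := by
    rw [← ENNReal.ofReal_tsum_of_nonneg (fun i => integral_nonneg (hnn i)) hsum]
    exact ENNReal.ofReal_ne_top
  have h4 : ∀ᵐ x ∂μ, ∑' i, ENNReal.ofReal (f i x) < ⊤ :=
    ae_lt_top' (AEMeasurable.tsum hmeas) (by rw [h2]; exact h3)
  filter_upwards [h4] with x hx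
  have h5 := ENNReal.summable_toReal hx.ne
  refine h5.congr fun i => ?_
  rw [ENNReal.toReal_ofReal (hnn i x)]

theorem integrable_weight_sq_tsum (G : ℕ → ℝ × ℝ → ℝ) (hG0 : ∀ k ξ, 0 ≤ G k ξ)
    (hGm : ∀ k, AEStronglyMeasurable (G k) volume)
    (w : ℝ × ℝ → ℝ) (hw0 : ∀ ξ, 0 ≤ w ξ) (hwm : AEStronglyMeasurable w volume)
    (hint : ∀ k, Integrable (fun ξ => w ξ * G k ξ ^ 2))
    (hsum : Summable (fun k => (2 : ℝ) ^ (k + 1) * ∫ ξ, w ξ * G k ξ ^ 2)) :
    Integrable (fun ξ => w ξ * ‖((∑' k, G k ξ : ℝ) : ℂ)‖ ^ 2) := by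
  have hfun : (fun ξ => w ξ * ‖((∑' k, G k ξ : ℝ) : ℂ)‖ ^ 2) =
      fun ξ => w ξ * (∑' k, G k ξ) ^ 2 := by
    ext ξ
    rw [Complex.norm_real, Real.norm_eq_abs, sq_abs]
  rw [hfun]
  set f : ℕ → ℝ × ℝ → ℝ := fun k ξ => (2 : ℝ) ^ (k + 1) * (w ξ * G k ξ ^ 2) with hf
  have hfint : ∀ k, Integrable (f k) := fun k => (hint k).const_mul _
  have hfnn : ∀ k ξ, 0 ≤ f k ξ := fun k ξ =>
    mul_nonneg (by positivity) (mul_nonneg (hw0 ξ) (sq_nonneg _))
  have hfsum : Summable (fun k => ∫ ξ, f k ξ) := by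
    refine hsum.congr fun k => ?_
    rw [hf]
    simp only
    rw [integral_const_mul]
  have hH := (integrable_tsum_of_nonneg f hfint hfnn hfsum).1
  have hae := ae_summable_of_nonneg f hfint hfnn hfsum
  have hmeasG : AEStronglyMeasurable (fun ξ => ∑' k, G k ξ) volume := by
    have h1 : (fun ξ => ∑' k, G k ξ) = fun ξ => (∑' k, ENNReal.ofReal (G k ξ)).toReal := by
      ext ξ; exact tsum_eq_toReal_tsum_ofReal _ (fun k => hG0 k ξ)
    rw [h1]
    exact (AEMeasurable.tsum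
      (fun k => (hGm k).aemeasurable.ennreal_ofReal)).ennreal_toReal.aestronglyMeasurable
  refine hH.mono' (hwm.mul (hmeasG.pow 2)) ?_
  filter_upwards [hae] with ξ hξ
  rw [Real.norm_of_nonneg (mul_nonneg (hw0 ξ) (sq_nonneg _))]
  rcases (hw0 ξ).eq_or_lt with hw | hw
  · rw [← hw, zero_mul]
    exact tsum_nonneg (fun k => hfnn k ξ)
  · have hs : Summable (fun k => (2 : ℝ) ^ (k + 1) * G k ξ ^ 2) := by
      have := hξ.mul_left (w ξ)⁻¹
      refine this.congr fun k => ?_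
      simp only [hf]
      field_simp
    have h1 := sq_tsum_le (fun k => G k ξ) (fun k => hG0 k ξ) hs
    calc w ξ * (∑' k, G k ξ) ^ 2 ≤ w ξ * ∑' k, (2 : ℝ) ^ (k + 1) * G k ξ ^ 2 :=
          mul_le_mul_of_nonneg_left h1 hw.le
      _ = ∑' k, f k ξ := by
          rw [← tsum_mul_left]
          apply tsum_congr
          intro k
          simp only [hf]
          ring

end Vale.Agent.P076
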