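import Mathlib
import Vale.Agent.P076.Sequence
import Vale.Agent.P076.Glue
import Vale.Agent.P076.WeightedSq

/-! Assembly of the counterexample. -/

namespace Vale.Agent.P076

open MeasureTheory Filter Topology Real Complex

theorem schrodReg_const_mul (c : ℝ) (G : ℝ × ℝ → ℝ) (a t : ℝ) (x : ℝ × ℝ) :
    schrodReg (fun ξ => ((c * G ξ : ℝ) : ℂ)) a t x = (c : ℂ) * schrodReg (fun ξ => (G ξ : ℂ)) a t x := by
  rw [schrodReg_eq, schrodReg_eq]
  have : (fun ξ : ℝ × ℝ => osc2 a t x ξ * ((c * G ξ : ℝ) : ℂ)) =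
      fun ξ => (c : ℂ) * (osc2 a t x ξ * (G ξ : ℂ)) := by
    ext ξ; push_cast; ring
  rw [this, integral_const_mul]
  ring

theorem coef_nonneg (M : ℝ) (hM : 0 ≤ M) (K : ℕ) : 0 ≤ coef M K := by
  unfold coef
  positivity

theorem contrib_nonneg (M : ℝ) (hM : 0 ≤ M) (K : ℕ) : 0 ≤ contrib M K := by
  unfold contrib
  apply mul_nonneg (by positivity)
  apply integral_nonneg
  intro ξ
  exact mul_nonneg (coef_nonneg M hM K) (piece_nonneg _ _)

theorem coef_mul_peak (M : ℝ) (K : ℕ) (hK : 0 < K) :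
    coef M K * ((4 * K : ℝ) ^ 4 * Real.sqrt (4 * K) / 1920) = M := by
  have hK' : (0 : ℝ) < K := by exact_mod_cast hK
  unfold coef
  have : 0 < Real.sqrt (4 * K) := Real.sqrt_pos.2 (by positivity)
  field_simp

/-- the set of peaks at scale `4 K` -/
def peakSet (K : ℕ) : Set (ℝ × ℝ) := ⋃ i ∈ boxIdx K, box K i

theorem measurableSet_peakSet (K : ℕ) : MeasurableSet (peakSet K) :=
  Finset.measurableSet_biUnion _ fun i _ => measurableSet_box K i

theorem aestronglyMeasurable_tsum (G : ℕ → ℝ × ℝ → ℝ) (hG0 : ∀ k ξ, 0 ≤ G k ξ)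
    (hGm : ∀ k, AEStronglyMeasurable (G k) volume) :
    AEStronglyMeasurable (fun ξ => ((∑' k, G k ξ : ℝ) : ℂ)) volume := by
  have h1 : (fun ξ => ∑' k, G k ξ) = fun ξ => (∑' k, ENNReal.ofReal (G k ξ)).toReal := by
    ext ξ; exact tsum_eq_toReal_tsum_ofReal _ (fun k => hG0 k ξ)
  have h2 : AEMeasurable (fun ξ => ∑' k, G k ξ) volume := by
    rw [h1]
    exact (AEMeasurable.tsum fun k => (hGm k).aemeasurable.ennreal_ofReal).ennreal_toReal
  exact (Complex.measurable_ofReal.comp_aemeasurable h2).aestronglyMeasurable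

theorem seq_pos (Kk : ℕ → ℕ) (Mk : ℕ → ℝ)
    (hM : ∀ k : ℕ, Mk k = (k : ℝ) + 1 + ∑ j ∈ Finset.range k, contrib (Mk j) (Kk j)) :
    ∀ k, 0 < Mk k := by
  intro k
  induction k using Nat.strong_induction_on with
  | _ k ih =>
    rw [hM k]
    have : 0 ≤ ∑ j ∈ Finset.range k, contrib (Mk j) (Kk j) :=
      Finset.sum_nonneg fun j hj => contrib_nonneg _ (ih j (Finset.mem_range.1 hj)).le _
    positivity

theorem weight_sharp (ω : ℝ → ℝ) (hanti : Antitone ω) (hpos : ∀ r, 0 < ω r)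
    (hlim : Tendsto ω atTop (𝓝 0)) :
    ∃ g : ℝ × ℝ → ℂ, MemLp g 2 volume ∧
      Integrable (fun ξ : ℝ × ℝ => (1 + ξ.1 ^ 2 + ξ.2 ^ 2) ^ (1 / 3 : ℝ) *
        ω (Real.sqrt (ξ.1 ^ 2 + ξ.2 ^ 2)) * ‖g ξ‖ ^ 2) ∧
      ∃ S : Set (ℝ × ℝ), MeasurableSet S ∧ 0 < volume S ∧ ∀ x ∈ S, ¬ HasSchrodLimit g x := by
  obtain ⟨Kk, Mk, h16, hmono, hk1, hb, hc, hd, hM⟩ := exists_seq ω hpos hlim
  have hMpos := seq_pos Kk Mk hM
  have hN2 : ∀ k, (2 : ℝ) ≤ (4 * Kk k : ℝ) := by
    intro k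
    have : (16 : ℝ) ≤ Kk k := by exact_mod_cast h16 k
    linarith
  have hcoef0 : ∀ k, 0 ≤ coef (Mk k) (Kk k) := fun k => coef_nonneg _ (hMpos k).le _
  set G : ℕ → ℝ × ℝ → ℝ := fun k ξ => coef (Mk k) (Kk k) * piece (4 * Kk k) ξ with hG
  have hG0 : ∀ k ξ, 0 ≤ G k ξ := fun k ξ => mul_nonneg (hcoef0 k) (piece_nonneg _ _)
  have hGint : ∀ k, Integrable (G k) := fun k => (piece_integrable _ (hN2 k)).const_mul _
  have hGsq : ∀ k, (fun ξ => G k ξ ^ 2) = fun ξ => coef (Mk k) (Kk k) ^ 2 * piece (4 * Kk k) ξ ^ 2 := by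
    intro k; ext ξ; rw [hG]; simp only; ring
  have hG2int : ∀ k, Integrable (fun ξ => G k ξ ^ 2) := by
    intro k
    rw [hGsq k]
    exact (piece_sq _ (hN2 k)).1.const_mul _
  have hgeom : Summable (fun k : ℕ => (1 / 2 : ℝ) ^ k) :=
    summable_geometric_of_lt_one (by norm_num) (by norm_num)
  have hG2sum : Summable (fun k => (2 : ℝ) ^ (k + 1) * ∫ ξ, G k ξ ^ 2) := by
    refine Summable.of_nonneg_of_le (fun k => ?_) (fun k => ?_) hgeom
    · exact mul_nonneg (by positivity) (integral_nonneg fun ξ => by positivity)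
    · refine le_trans ?_ (hb k)
      rw [hGsq k, integral_const_mul]
      gcongr
      exact (piece_sq _ (hN2 k)).2
  have hGm : ∀ k, AEStronglyMeasurable (G k) volume := fun k => (hGint k).1
  refine ⟨fun ξ => ((∑' k, G k ξ : ℝ) : ℂ), ?_, ?_, ?_⟩
  · rw [memLp_two_iff_integrable_sq_norm (aestronglyMeasurable_tsum G hG0 hGm)]
    have h := integrable_weight_sq_tsum G hG0 hGm (fun _ => 1) (fun _ => zero_le_one)
      aestronglyMeasurable_const (by simpa using hG2int) (by simpa using hG2sum)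
    simpa using h
  · set w : ℝ × ℝ → ℝ := fun ξ => (1 + ξ.1 ^ 2 + ξ.2 ^ 2) ^ (1 / 3 : ℝ) *
      ω (Real.sqrt (ξ.1 ^ 2 + ξ.2 ^ 2)) with hw
    have hw0 : ∀ ξ, 0 ≤ w ξ := by
      intro ξ
      rw [hw]
      have := hpos (Real.sqrt (ξ.1 ^ 2 + ξ.2 ^ 2))
      positivity
    have hwm : AEStronglyMeasurable w volume := by
      apply Measurable.aestronglyMeasurable
      rw [hw]
      apply Measurable.mul
      · fun_prop
      · exact hanti.measurable.comp (by fun_prop)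
    have hwG : ∀ k, (fun ξ => w ξ * G k ξ ^ 2) = fun ξ => coef (Mk k) (Kk k) ^ 2 *
        ((1 + ξ.1 ^ 2 + ξ.2 ^ 2) ^ (1 / 3 : ℝ) * ω (Real.sqrt (ξ.1 ^ 2 + ξ.2 ^ 2)) *
          piece (4 * Kk k) ξ ^ 2) := by
      intro k; ext ξ; rw [hG, hw]; simp only; ring
    have hint : ∀ k, Integrable (fun ξ => w ξ * G k ξ ^ 2) := by
      intro k
      rw [hwG k]
      exact (piece_weighted _ (hN2 k) ω hanti hpos).1.const_mul _
    have hsum : Summable (fun k => (2 : ℝ) ^ (k + 1) * ∫ ξ, w ξ * G k ξ ^ 2) := by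
      refine Summable.of_nonneg_of_le (fun k => ?_) (fun k => ?_) hgeom
      · exact mul_nonneg (by positivity) (integral_nonneg fun ξ => mul_nonneg (hw0 ξ) (by positivity))
      · refine le_trans ?_ (hc k)
        rw [hwG k, integral_const_mul]
        gcongr
        exact (piece_weighted _ (hN2 k) ω hanti hpos).2
    exact integrable_weight_sq_tsum G hG0 hGm w hw0 hwm hint hsum
  · have hKmono : Monotone Kk := (strictMono_nat_of_lt_succ hmono).monotone
    have hKpos : ∀ k, (0 : ℝ) < Kk k := by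
      intro k
      have : (16 : ℝ) ≤ Kk k := by exact_mod_cast h16 k
      linarith
    apply glue_divergence G hG0 hGint hG2int hG2sum (fun k => peakSet (Kk k))
      (fun k => measurableSet_peakSet _) (fun k => boxes_subset _ (h16 k)) (1 / 131072)
      (by norm_num) (fun k => volume_boxes_lower _ (h16 k)) (fun k => 1 / (4 * Kk k : ℝ) ^ 9)
      (fun k => by have := hKpos k; positivity)
    · intro k x hx
      obtain ⟨i, hi, hxi⟩ := Set.mem_iUnion₂.1 hx
      obtain ⟨t, ht1, ht2, ht3⟩ := piece_peak (Kk k) (h16 k) i hi x hxi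
      refine ⟨t, ht1, ?_, ?_⟩
      · refine ht2.trans ?_
        have hk0 : (0 : ℝ) < (k : ℝ) + 1 := by positivity
        apply one_div_le_one_div_of_le hk0
        calc (k : ℝ) + 1 ≤ (4 * Kk k : ℝ) := hk1 k
          _ = (4 * Kk k : ℝ) ^ 1 := (pow_one _).symm
          _ ≤ (4 * Kk k : ℝ) ^ 6 := pow_le_pow_right₀ (by linarith [hN2 k]) (by norm_num)
      · have e1 : (k : ℝ) + 1 + ∑ j ∈ Finset.range k, ((2 * π) ^ 2)⁻¹ * ∫ ξ, G j ξ = Mk k := by
          rw [hM k]
          rfl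
        rw [e1, hG]
        simp only
        rw [schrodReg_const_mul, norm_mul, Complex.norm_real, Real.norm_of_nonneg (hcoef0 k)]
        calc Mk k = coef (Mk k) (Kk k) * ((4 * Kk k : ℝ) ^ 4 * Real.sqrt (4 * Kk k) / 1920) :=
              (coef_mul_peak _ _ (by have := h16 k; omega)).symm
          _ ≤ _ := by
              apply mul_le_mul_of_nonneg_left ht3 (hcoef0 k)
    · intro k j hkj x hx t ht a ha
      obtain ⟨j', rfl⟩ : ∃ j', j = j' + 1 := ⟨j - 1, by omega⟩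
      have hkj' : k ≤ j' := by omega
      have hKK : (Kk k : ℝ) ≤ Kk j' := by exact_mod_cast hKmono hkj'
      set t₀ : ℝ := 1 / (4 * Kk j' : ℝ) ^ 9 with ht₀
      have ht₀pos : 0 < t₀ := by have := hKpos j'; positivity
      have ht₀t : t₀ ≤ t := by
        refine le_trans ?_ ht
        have := hKpos k
        apply one_div_le_one_div_of_le (by positivity)
        gcongr
      have h := piece_tail (4 * Kk (j' + 1)) (hN2 _) a t t₀ ha.le ht₀pos ht₀t x hx
      rw [hG]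
      simp only
      rw [schrodReg_const_mul, norm_mul, Complex.norm_real, Real.norm_eq_abs]
      refine le_trans ?_ (hd j')
      apply mul_le_mul_of_nonneg_left _ (abs_nonneg _)
      refine h.trans (le_of_eq ?_)
      have hT : |tailConst (Kk j')| = Real.sqrt (π / t₀) * Real.exp (1 / t₀) := by
        unfold tailConst
        rw [abs_of_nonneg (by positivity)]
      rw [hT, sub_eq_add_neg, Real.exp_add]
      have : -((4 * Kk (j' + 1) : ℝ) ^ 6 / 2) = -(4 * Kk (j' + 1) : ℝ) ^ 6 / 2 := by ring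
      rw [this]
      ring

end Vale.Agent.P076
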